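import Crest.Agent.R178.Ind

/-!
Representations that are free over the odd generators `ε`, their shifts and cones.
-/

set_option autoImplicit false

noncomputable section

namespace Crest.Agent.R178

open Finset

variable {U V W Y : Type} [AddCommGroup U] [Module ℂ U] [AddCommGroup V] [Module ℂ V]
  [AddCommGroup W] [Module ℂ W] [AddCommGroup Y] [Module ℂ Y]

/-- `Z` is freely generated over the exterior algebra by `W` placed in degree zero -/
structure Free0 (Z : RRep V) (gen : W →ₗ[ℂ] V) : Prop where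
  e0 : ∀ w, Z.e 0 (gen w) = gen w
  ind : ∀ (p : V → Prop) (_zero : p 0) (_add : ∀ x y, p x → p y → p (x + y))
    (_smul : ∀ (c : ℂ) x, p x → p (c • x)) (_gen : ∀ w, p (gen w))
    (_eps : ∀ i j x, p x → p (Z.ε i j x)) (x : V), p x
  univ : ∀ (Y : Type) [AddCommGroup Y] [Module ℂ Y] (η : Fin 2 → Fin 2 → Module.End ℂ Y),
    (∀ i j k l, η i j * η k l + η k l * η i j = 0) → ∀ f : W →ₗ[ℂ] Y,
      ∃ Φ : V →ₗ[ℂ] Y, (∀ w, Φ (gen w) = f w) ∧ ∀ i j x, Φ (Z.ε i j x) = η i j (Φ x)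

/-- the shifted idempotents -/
def RRep.e' (Z : RRep V) : ℕ → Module.End ℂ V
  | 0 => 0
  | i + 1 => Z.e i

@[simp] theorem RRep.e'_zero (Z : RRep V) : Z.e' 0 = 0 := rfl
@[simp] theorem RRep.e'_succ (Z : RRep V) (i : ℕ) : Z.e' (i + 1) = Z.e i := rfl

theorem RRep.ε_e' (Z : RRep V) (a b : Fin 2) (i : ℕ) (x : V) :
    Z.ε a b (Z.e' i x) = Z.e i (Z.ε a b x) := by
  cases i with
  | zero => simp [Z.e0_ε]
  | succ i => exact Z.ε_e a b i x

theorem RRep.d_e' (Z : RRep V) (i : ℕ) (x : V) : Z.d (Z.e' i x) = Z.e i (Z.d x) := by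
  cases i with
  | zero => simp [Z.e0_d]
  | succ i => exact Z.d_e i x

/-- the shift by one degree -/
def RRep.shift (Z : RRep V) (top : Z.e 5 = 0) : RRep V where
  e := Z.e'
  ε i j := -Z.ε i j
  d := -Z.d
  rel :=
    { εε := fun i j k l => by simpa using Z.rel.εε i j k l
      dd := by simpa using Z.rel.dd
      dε := fun i j => by simpa using Z.rel.dε i j
      ee := fun i j => by
        cases i <;> cases j <;> simp [Z.rel.ee]
      sum_e := by
        have := Z.rel.sum_e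
        rw [Finset.sum_range_succ, top, add_zero] at this
        rw [Finset.sum_range_succ']
        simpa using this
      εe := fun a b i => LinearMap.ext fun x => by simp [Z.ε_e']
      de := fun i => LinearMap.ext fun x => by simp [Z.d_e'] }

@[simp] theorem RRep.shift_e (Z : RRep V) (top : Z.e 5 = 0) (i : ℕ) :
    (Z.shift top).e i = Z.e' i := rfl
@[simp] theorem RRep.shift_ε (Z : RRep V) (top : Z.e 5 = 0) (i j : Fin 2) (x : V) :
    (Z.shift top).ε i j x = -Z.ε i j x := rfl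
@[simp] theorem RRep.shift_d (Z : RRep V) (top : Z.e 5 = 0) (x : V) :
    (Z.shift top).d x = -Z.d x := rfl

/-- the differential of the cone -/
def RRep.coneD (Z : RRep V) : Module.End ℂ (V × V) :=
  LinearMap.prod (Z.d ∘ₗ LinearMap.fst ℂ V V) (LinearMap.fst ℂ V V - Z.d ∘ₗ LinearMap.snd ℂ V V)

theorem RRep.coneD_apply (Z : RRep V) (x : V × V) : Z.coneD x = (Z.d x.1, x.1 - Z.d x.2) := rfl

/-- the cone of the identity -/
def RRep.cone (Z : RRep V) (top : Z.e 5 = 0) : RRep (V × V) where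
  e i := (Z.e i).prodMap (Z.e' i)
  ε i j := (Z.ε i j).prodMap (-Z.ε i j)
  d := Z.coneD
  rel :=
    { εε := (Z.prod (Z.shift top)).rel.εε
      dd := LinearMap.ext fun x => by simp [RRep.coneD_apply, Z.d_d]
      dε := fun i j => LinearMap.ext fun x => by
        simp [RRep.coneD_apply, Z.d_ε, Fin.sum_univ_two]
      ee := (Z.prod (Z.shift top)).rel.ee
      sum_e := (Z.prod (Z.shift top)).rel.sum_e
      εe := (Z.prod (Z.shift top)).rel.εe
      de := fun i => LinearMap.ext fun x => by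
        simp [RRep.coneD_apply, Z.d_e, Z.d_e'] }

theorem RRep.cone_e (Z : RRep V) (top : Z.e 5 = 0) (i : ℕ) (x : V × V) :
    (Z.cone top).e i x = (Z.e i x.1, Z.e' i x.2) := rfl
theorem RRep.cone_ε (Z : RRep V) (top : Z.e 5 = 0) (i j : Fin 2) (x : V × V) :
    (Z.cone top).ε i j x = (Z.ε i j x.1, -Z.ε i j x.2) := rfl
theorem RRep.cone_d (Z : RRep V) (top : Z.e 5 = 0) (x : V × V) :
    (Z.cone top).d x = (Z.d x.1, x.1 - Z.d x.2) := rfl

theorem ses_cone (Z : RRep V) (top : Z.e 5 = 0) :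
    SES (Z.shift top).toA (Z.cone top).toA Z.toA (LinearMap.inr ℂ V V) (LinearMap.fst ℂ V V) where
  hf := IsRHom.toA ⟨by simp [RRep.cone_e], by simp [RRep.cone_ε], by simp [RRep.cone_d]⟩
  hg := IsRHom.toA ⟨fun _ _ => rfl, fun _ _ _ => rfl, fun _ => rfl⟩
  inj := LinearMap.inr_injective
  exact := Function.Exact.inr_fst
  surj := Prod.fst_surjective

namespace Free0

variable {Z : RRep V} {gen : W →ₗ[ℂ] V} (h : Free0 Z gen)
include h

theorem grade (N : RRep Y) (s : ℂ) (Φ : V →ₗ[ℂ] Y)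
    (hΦ : ∀ i j x, Φ (Z.ε i j x) = s • N.ε i j (Φ x)) (k : ℕ)
    (hk : ∀ w, N.e k (Φ (gen w)) = Φ (gen w)) (x : V) :
    (∀ i, Φ (Z.e i x) = N.e (i + k) (Φ x)) ∧ ∀ j < k, N.e j (Φ x) = 0 := by
  induction x using h.ind with
  | _zero => simp
  | _add x y hx hy =>
    exact ⟨fun i => by simp [hx.1, hy.1], fun j hj => by simp [hx.2 j hj, hy.2 j hj]⟩
  | _smul c x hx => exact ⟨fun i => by simp [hx.1], fun j hj => by simp [hx.2 j hj]⟩
  | _gen w =>
    refine ⟨fun i => ?_, fun j hj => ?_⟩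
    · cases i with
      | zero => rw [h.e0, zero_add, hk]
      | succ i =>
        rw [← h.e0, Z.e_ne (by omega), map_zero, h.e0, ← hk, N.e_ne (by omega)]
    · rw [← hk, N.e_ne (by omega)]
  | _eps a b x hx =>
    have h2 : ∀ j ≤ k, N.e j (N.ε a b (Φ x)) = 0 := by
      intro j hj
      cases j with
      | zero => exact N.e0_ε _ _ _
      | succ j => rw [← N.ε_e, hx.2 j (by omega), map_zero]
    refine ⟨fun i => ?_, fun j hj => ?_⟩
    · cases i with
      | zero => rw [Z.e0_ε, map_zero, hΦ, map_smul, h2 _ (by omega), smul_zero]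
      | succ i =>
        rw [← Z.ε_e, hΦ, hx.1, N.ε_e, hΦ, map_smul]
        congr 3
        omega
    · rw [hΦ, map_smul, h2 _ hj.le, smul_zero]

/-- maps out of `Z` -/
theorem exists_hom (N : RRep Y) (f : W →ₗ[ℂ] Y) (hf : ∀ w, N.e 0 (f w) = f w) :
    ∃ Φ : V →ₗ[ℂ] Y, (∀ w, Φ (gen w) = f w) ∧ (∀ i j x, Φ (Z.ε i j x) = N.ε i j (Φ x)) ∧
      ∀ i x, Φ (Z.e i x) = N.e i (Φ x) := by
  obtain ⟨Φ, h1, h2⟩ := h.univ Y N.ε N.rel.εε f
  exact ⟨Φ, h1, h2, fun i x =>
    (h.grade N 1 Φ (by simpa using h2) 0 (by simpa [h1] using hf) x).1 i⟩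

theorem isRHom_of_gen {N : RRep Y} {Φ : V →ₗ[ℂ] Y}
    (h2 : ∀ i j x, Φ (Z.ε i j x) = N.ε i j (Φ x)) (h3 : ∀ i x, Φ (Z.e i x) = N.e i (Φ x))
    (h4 : ∀ w, Φ (Z.d (gen w)) = N.d (Φ (gen w))) : IsRHom Z N Φ where
  he := h3
  hε := h2
  hd x := by
    induction x using h.ind with
    | _zero => simp
    | _add x y hx hy => simp [hx, hy]
    | _smul c x hx => simp [hx]
    | _gen w => exact h4 w
    | _eps a b x hx => simp [Z.d_ε, N.d_ε, h2, hx]

/-- maps out of the cone -/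
theorem exists_coneHom (top : Z.e 5 = 0) (N : RRep Y) (f : W →ₗ[ℂ] Y)
    (hf : ∀ w, N.e 0 (f w) = f w) :
    ∃ F : V × V →ₗ[ℂ] Y, IsRHom (Z.cone top) N F ∧ ∀ w, F (gen w, 0) = f w := by
  obtain ⟨Φ, h1, h2, h3⟩ := h.exists_hom N f hf
  obtain ⟨Ψ, k1, k2⟩ := h.univ Y (fun i j => -N.ε i j) (by simpa using N.rel.εε)
    (N.d ∘ₗ f - Φ ∘ₗ Z.d ∘ₗ gen)
  have k3 := h.grade N (-1) Ψ (by simpa using k2) 1 (fun w => by
    have a1 : N.e 1 (N.d (f w)) = N.d (f w) := by rw [← N.d_e, hf]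
    have a2 : N.e 1 (Φ (Z.d (gen w))) = Φ (Z.d (gen w)) := by rw [← h3, ← Z.d_e, h.e0]
    simp [k1, a1, a2])
  have k4 : ∀ x, N.d (Φ x) = Φ (Z.d x) + Ψ x := by
    intro x
    induction x using h.ind with
    | _zero => simp
    | _add x y hx hy => simp [hx, hy]; abel
    | _smul c x hx => simp [hx]
    | _gen w => simp [h1, k1]
    | _eps a b x hx => simp [Z.d_ε, N.d_ε, h2, hx, k2]; abel
  have k5 : ∀ x, N.d (Ψ x) = -Ψ (Z.d x) := by
    intro x
    have := congrArg N.d (k4 x)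
    rw [N.d_d, map_add, k4, Z.d_d, map_zero, zero_add] at this
    exact eq_neg_of_add_eq_zero_right this.symm
  refine ⟨Φ.coprod Ψ, ⟨fun i x => ?_, fun i j x => ?_, fun x => ?_⟩, fun w => by simp [h1]⟩
  · cases i with
    | zero => simp [RRep.cone_e, h3, (k3 _).2 0 one_pos]
    | succ i => simp [RRep.cone_e, h3, (k3 _).1]
  · simp [RRep.cone_ε, h2, k2]
  · simp [RRep.cone_d, k4, k5]
    abel

theorem cone_ind (top : Z.e 5 = 0) (p : V × V → Prop) (h0 : p 0)
    (hadd : ∀ x y, p x → p y → p (x + y)) (hsmul : ∀ (c : ℂ) x, p x → p (c • x))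
    (hgen : ∀ w, p (gen w, 0)) (hε : ∀ i j x, p x → p ((Z.cone top).ε i j x))
    (hd : ∀ x, p x → p ((Z.cone top).d x)) (x : V × V) : p x := by
  have h1 : ∀ x, p (x, 0) := by
    intro x
    induction x using h.ind with
    | _zero => exact h0
    | _add x y hx hy => simpa using hadd _ _ hx hy
    | _smul c x hx => simpa using hsmul c _ hx
    | _gen w => exact hgen w
    | _eps a b x hx => simpa [RRep.cone_ε] using hε a b _ hx
  have h2 := hadd _ _ (h1 (x.1 - Z.d x.2)) (hd _ (h1 x.2))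
  simpa [RRep.cone_d] using h2

theorem pd_cone (top : Z.e 5 = 0) : (Z.cone top).toA.pd 1 := by
  refine pd_one_of_split _ fun Y _ _ N g hg hs => ?_
  obtain ⟨f', hf'⟩ := Module.projective_lifting_property g (LinearMap.inl ℂ V V ∘ₗ gen) hs
  have hf'' : ∀ w, g (f' w) = (gen w, 0) := fun w => LinearMap.congr_fun hf' w
  obtain ⟨F, hF, hF'⟩ := h.exists_coneHom top N.toRRep (N.e 0 ∘ₗ f') (fun w => N.e_self 0 _)
  have hn : ∀ x, ∀ v, N.n0 v (F x) = 0 ∧ N.n1 v (F x) = 0 := by
    have hε : ∀ y, (∀ v, N.n0 v y = 0 ∧ N.n1 v y = 0) →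
        ∀ i j v, N.n0 v (N.ε i j y) = 0 ∧ N.n1 v (N.ε i j y) = 0 := by
      intro y hy i j v
      have a := N.εn0 i j v y
      have b := N.εn1 i j v y
      simp only [(hy _).1, (hy _).2, map_zero, ite_self, sub_zero, add_zero] at a b
      exact ⟨neg_eq_zero.1 a.symm, b.symm⟩
    intro x
    induction x using h.cone_ind top with
    | h0 => simp
    | hadd x y hx hy => intro v; simp [(hx v).1, (hx v).2, (hy v).1, (hy v).2]
    | hsmul c x hx => intro v; simp [(hx v).1, (hx v).2]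
    | hgen w => intro v; simp [hF', N.n0e, N.n1e]
    | hε i j x hx => intro v; rw [hF.hε]; exact hε _ hx i j v
    | hd x hx =>
      intro v
      rw [hF.hd]
      have a := N.dn0 v (F x)
      have b := N.dn1 v (F x)
      simp only [(hx _).1, (hx _).2, map_zero, (hε _ hx _ _ _).1, (hε _ hx _ _ _).2, add_zero,
        sub_zero] at a b
      exact ⟨neg_eq_zero.1 a.symm, b.symm⟩
  refine ⟨F, { hF with
    h0 := fun v x => by rw [(hn x v).1]; exact F.map_zero
    h1 := fun v x => by rw [(hn x v).2]; exact F.map_zero }, fun x => ?_⟩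
  induction x using h.cone_ind top with
  | h0 => simp
  | hadd x y hx hy => simp [hx, hy]
  | hsmul c x hx => simp [hx]
  | hgen w =>
    rw [hF', LinearMap.comp_apply, hg.he, hf'']
    exact Prod.ext (h.e0 w) rfl
  | hε i j x hx => rw [hF.hε, hg.hε, hx]; rfl
  | hd x hx => rw [hF.hd, hg.hd, hx]; rfl

/-- the twisted square of a free representation is free -/
theorem tw : Free0 Z.tw (gen.compLeft (Fin 2)) where
  e0 w := funext fun v => h.e0 _
  ind p h0 hadd hsmul hgen hε x := by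
    have h1 : ∀ v x, p (Pi.single v x) := by
      intro v x
      induction x using h.ind with
      | _zero => simpa using h0
      | _add x y hx hy => rw [Pi.single_add]; exact hadd _ _ hx hy
      | _smul c x hx => rw [Pi.single_smul]; exact hsmul c _ hx
      | _gen w => rw [← compLeft_single]; exact hgen _
      | _eps a b x hx => rw [← RRep.tw_ε_single]; exact hε a b _ hx
    have h2 : x = Pi.single 0 (x 0) + Pi.single 1 (x 1) := by
      funext v; fin_cases v <;> simp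
    rw [h2]
    exact hadd _ _ (h1 _ _) (h1 _ _)
  univ Y _ _ η hη f := by
    obtain ⟨Φ0, a0, b0⟩ := h.univ Y η hη (f ∘ₗ LinearMap.single ℂ (fun _ => W) 0)
    obtain ⟨Φ1, a1, b1⟩ := h.univ Y η hη (f ∘ₗ LinearMap.single ℂ (fun _ => W) 1)
    refine ⟨Φ0 ∘ₗ LinearMap.proj (0 : Fin 2) + Φ1 ∘ₗ LinearMap.proj (1 : Fin 2), fun w => ?_,
      fun i j x => by simp [b0, b1]⟩
    have h2 : w = Pi.single 0 (w 0) + Pi.single 1 (w 1) := by
      funext v; fin_cases v <;> simp
    conv_rhs => rw [h2]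
    simp [a0, a1]

theorem gen_injective : Function.Injective gen := by
  obtain ⟨Φ, h1, -⟩ := h.univ W (fun _ _ => 0) (by simp) LinearMap.id
  exact Function.LeftInverse.injective h1

end Free0

theorem RRep.tw_top (Z : RRep V) (top : Z.e 5 = 0) : Z.tw.e 5 = 0 :=
  LinearMap.ext fun y => funext fun v => by simp [top]

end Crest.Agent.R178
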