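import Crest.Agent.R178.Ind

/-!
Projective covers over the directed algebra: `Ind M` has projective dimension at most four, and
exactly four when `M` has a `d`-closed element in degree one.
-/

set_option autoImplicit false

noncomputable section

namespace Crest.Agent.R178

open Finset TensorProduct

variable {U V W : Type} [AddCommGroup U] [Module ℂ U] [AddCommGroup V] [Module ℂ V]
  [AddCommGroup W] [Module ℂ W]

/-- left multiplication on the first tensor factor -/
def lmulT (V : Type) [AddCommGroup V] [Module ℂ V] : R →ₐ[ℂ] Module.End ℂ (R ⊗[ℂ] V) :=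
  (Module.End.rTensorAlgHom ℂ R V).comp (Algebra.lmul ℂ R)

@[simp] theorem lmulT_tmul (r s : R) (m : V) : lmulT V r (s ⊗ₜ m) = (r * s) ⊗ₜ m := rfl

/-- the free representation -/
def free (V : Type) [AddCommGroup V] [Module ℂ V] : RRep (R ⊗[ℂ] V) where
  e i := lmulT V (Re i)
  ε i j := lmulT V (Rε i j)
  d := lmulT V Rd
  rel := RRel.map (C := Module.End ℂ (R ⊗[ℂ] V)) (lmulT V).toRingHom relR

theorem free_act (r : R) : ∀ x, (free V).act r x = lmulT V r x := by
  induction r using R_induction with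
  | hc c => intro x; simp [AlgHom.commutes]
  | he i => intro x; rw [RRep.act_e]; rfl
  | hε i j => intro x; rw [RRep.act_ε]; rfl
  | hd => intro x; rw [RRep.act_d]; rfl
  | hmul a b ha hb => intro x; simp [ha, hb]
  | hadd a b ha hb => intro x; simp [ha, hb]

/-- the map out of the free representation -/
def freeLift (N : RRep W) (f : V →ₗ[ℂ] W) : R ⊗[ℂ] V →ₗ[ℂ] W :=
  TensorProduct.lift ((LinearMap.lcomp ℂ W f) ∘ₗ N.act.toLinearMap)

@[simp] theorem freeLift_tmul (N : RRep W) (f : V →ₗ[ℂ] W) (r : R) (m : V) :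
    freeLift N f (r ⊗ₜ m) = N.act r (f m) := rfl

theorem freeLift_lmul (N : RRep W) (f : V →ₗ[ℂ] W) (r : R) (x : R ⊗[ℂ] V) :
    freeLift N f (lmulT V r x) = N.act r (freeLift N f x) := by
  induction x using TensorProduct.induction_on with
  | zero => simp
  | tmul s m => simp
  | add x y hx hy => simp [hx, hy]

theorem isRHom_freeLift (N : RRep W) (f : V →ₗ[ℂ] W) : IsRHom (free V) N (freeLift N f) where
  he i x := by rw [← N.act_e, ← freeLift_lmul]; rfl
  hε i j x := by rw [← N.act_ε, ← freeLift_lmul]; rfl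
  hd x := by rw [← N.act_d, ← freeLift_lmul]; rfl

theorem free_ext {N : RRep W} {f g : R ⊗[ℂ] V →ₗ[ℂ] W} (hf : IsRHom (free V) N f)
    (hg : IsRHom (free V) N g) (h : ∀ m, f (1 ⊗ₜ m) = g (1 ⊗ₜ m)) (x : R ⊗[ℂ] V) : f x = g x := by
  induction x using TensorProduct.induction_on with
  | zero => simp
  | tmul s m =>
    have : s ⊗ₜ[ℂ] m = (free V).act s (1 ⊗ₜ m) := by rw [free_act, lmulT_tmul, mul_one]
    rw [this, hf.act, hg.act, h]
  | add x y hx hy => simp [hx, hy]

namespace RRep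

variable (M : RRep V)

/-- the projector onto the balanced tensors -/
def pr : Module.End ℂ (R ⊗[ℂ] V) :=
  ∑ k ∈ range 6, TensorProduct.map (LinearMap.mulRight ℂ (Re k)) (M.e k)

theorem pr_tmul (r : R) (m : V) : M.pr (r ⊗ₜ m) = ∑ k ∈ range 6, (r * Re k) ⊗ₜ M.e k m := by
  simp [pr]

theorem pr_lmul (r : R) (x : R ⊗[ℂ] V) : M.pr (lmulT V r x) = lmulT V r (M.pr x) := by
  induction x using TensorProduct.induction_on with
  | zero => simp
  | tmul s m => simp [pr_tmul, mul_assoc]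
  | add x y hx hy => simp [hx, hy]

theorem pr_e (r : R) (k : ℕ) (m : V) :
    M.pr ((r * Re k) ⊗ₜ M.e k m) = (r * Re k) ⊗ₜ M.e k m := by
  by_cases hk : k < 6
  · rw [pr_tmul, Finset.sum_eq_single k]
    · rw [mul_assoc, relR.e_self, M.e_self]
    · intro l _ hl
      rw [M.e_ne hl, tmul_zero]
    · intro h; exact absurd (Finset.mem_range.2 hk) h
  · rw [relR.e_big (i := k) (by omega)]; simp

theorem pr_pr (x : R ⊗[ℂ] V) : M.pr (M.pr x) = M.pr x := by
  induction x using TensorProduct.induction_on with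
  | zero => simp
  | tmul s m => rw [pr_tmul, map_sum]; exact Finset.sum_congr rfl fun k _ => M.pr_e s k m
  | add x y hx hy => simp [hx, hy]

/-- the multiplication map -/
def mu : R ⊗[ℂ] V →ₗ[ℂ] V := freeLift M LinearMap.id

theorem mu_tmul (r : R) (m : V) : M.mu (r ⊗ₜ m) = M.act r m := rfl

theorem isRHom_mu : IsRHom (free V) M M.mu := isRHom_freeLift _ _

/-- the space of the cover -/
def covS : Submodule ℂ (R ⊗[ℂ] V) := LinearMap.eqLocus M.pr LinearMap.id

theorem mem_covS {x : R ⊗[ℂ] V} : x ∈ M.covS ↔ M.pr x = x := Iff.rfl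

theorem lmul_mem_covS (r : R) : ∀ x ∈ M.covS, lmulT V r x ∈ M.covS := fun x hx => by
  rw [mem_covS, pr_lmul, M.mem_covS.1 hx]

/-- the cover -/
def Cov : RRep M.covS := (free V).sub M.covS (fun _ => M.lmul_mem_covS _)
  (fun _ _ => M.lmul_mem_covS _) (M.lmul_mem_covS _)

/-- the space of the syzygy -/
def omS : Submodule ℂ (R ⊗[ℂ] V) := M.covS ⊓ LinearMap.ker M.mu

theorem lmul_mem_omS (r : R) : ∀ x ∈ M.omS, lmulT V r x ∈ M.omS := fun x hx =>
  ⟨M.lmul_mem_covS r x hx.1, by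
    have : M.mu x = 0 := hx.2
    change M.mu _ = 0
    rw [mu, freeLift_lmul, ← mu, this, map_zero]⟩

/-- the syzygy -/
def Om : RRep M.omS := (free V).sub M.omS (fun _ => M.lmul_mem_omS _)
  (fun _ _ => M.lmul_mem_omS _) (M.lmul_mem_omS _)

/-- support in degrees at least `j` -/
def Supp (j : ℕ) : Prop := ∀ i < j, M.e i = 0

variable {M}

theorem Supp.e_pr {j : ℕ} (h : M.Supp j) {i : ℕ} (hi : i < j) (x : R ⊗[ℂ] V) :
    lmulT V (Re i) (M.pr x) = 0 := by
  induction x using TensorProduct.induction_on with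
  | zero => simp
  | tmul s m =>
    rw [pr_tmul, map_sum]
    refine Finset.sum_eq_zero fun k _ => ?_
    by_cases hk : k < j
    · rw [h k hk]; simp
    · rw [lmulT_tmul, ← mul_assoc, (directed s).1 i k (by omega), zero_tmul]
  | add x y hx hy => simp [hx, hy]

theorem Supp.e_pr_self {j : ℕ} (h : M.Supp j) (x : R ⊗[ℂ] V) :
    ∃ m, lmulT V (Re j) (M.pr x) = Re j ⊗ₜ M.e j m := by
  induction x using TensorProduct.induction_on with
  | zero => exact ⟨0, by simp⟩
  | tmul s m =>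
    obtain ⟨c, hc⟩ := (directed s).2 j
    by_cases hj : j < 6
    · refine ⟨c • m, ?_⟩
      rw [pr_tmul, map_sum, Finset.sum_eq_single j]
      · rw [lmulT_tmul, ← mul_assoc, hc, map_smul, smul_tmul]
      · intro k _ hk
        by_cases hk' : k < j
        · rw [h k hk']; simp
        · rw [lmulT_tmul, ← mul_assoc, (directed s).1 j k (by omega), zero_tmul]
      · intro h; exact absurd (Finset.mem_range.2 hj) h
    · exact ⟨0, by rw [relR.e_big (i := j) (by omega)]; simp⟩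
  | add x y hx hy =>
    obtain ⟨a, ha⟩ := hx
    obtain ⟨b, hb⟩ := hy
    exact ⟨a + b, by simp [ha, hb, tmul_add]⟩

theorem Supp.cov {j : ℕ} (h : M.Supp j) : M.Cov.Supp j := by
  intro i hi
  ext x
  have := h.e_pr hi x.1
  rw [M.mem_covS.1 x.2] at this
  exact this

theorem Supp.om {j : ℕ} (h : M.Supp j) : M.Om.Supp (j + 1) := by
  intro i hi
  ext x
  change lmulT V (Re i) x.1 = 0
  rcases Nat.lt_succ_iff_lt_or_eq.1 hi with hi | rfl
  · have := h.e_pr hi x.1
    rwa [M.mem_covS.1 x.2.1] at this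
  · obtain ⟨m, hm⟩ := h.e_pr_self x.1
    rw [M.mem_covS.1 x.2.1] at hm
    have h1 : M.mu x.1 = 0 := x.2.2
    have h2 := congrArg M.mu hm
    rw [mu, freeLift_lmul, ← mu, h1, map_zero, mu_tmul, RRep.act_e, M.e_self] at h2
    rw [hm, ← h2, tmul_zero]

variable (M)

theorem mu_pr (x : R ⊗[ℂ] V) : M.mu (M.pr x) = M.mu x := by
  induction x using TensorProduct.induction_on with
  | zero => simp
  | tmul s m =>
    rw [pr_tmul, map_sum, mu_tmul]
    conv_rhs => rw [← M.sum_e m, map_sum]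
    exact Finset.sum_congr rfl fun k _ => by simp [mu_tmul, M.e_self]
  | add x y hx hy => simp [hx, hy]

theorem ses_cov (h0 : M.e 0 = 0) (h1 : M.Cov.e 0 = 0) (h2 : M.Om.e 0 = 0) :
    SES (M.Om.Ind h2) (M.Cov.Ind h1) (M.Ind h0)
      (indMap (Submodule.inclusion inf_le_left)) (indMap (M.mu ∘ₗ M.covS.subtype)) := by
  have k1 : IsRHom M.Om M.Cov (Submodule.inclusion inf_le_left) :=
    ⟨fun _ _ => rfl, fun _ _ _ => rfl, fun _ => rfl⟩
  have k2 : IsRHom M.Cov M (M.mu ∘ₗ M.covS.subtype) :=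
    ⟨fun i x => M.isRHom_mu.he i x, fun i j x => M.isRHom_mu.hε i j x,
      fun x => M.isRHom_mu.hd x⟩
  refine ses_ind k1 k2 (Submodule.inclusion_injective _) (fun x => ⟨fun hx => ?_, ?_⟩)
    (fun m => ?_) h2 h1 h0
  · exact ⟨⟨x.1, x.2, hx⟩, rfl⟩
  · rintro ⟨y, rfl⟩
    exact y.2.2
  · exact ⟨⟨M.pr (1 ⊗ₜ m), M.pr_pr _⟩, by simp [mu_pr, mu_tmul]⟩

/-- the projector as a map onto the cover -/
def prC : R ⊗[ℂ] V →ₗ[ℂ] M.covS := LinearMap.codRestrict M.covS M.pr M.pr_pr

theorem isRHom_prC : IsRHom (free V) M.Cov M.prC :=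
  ⟨fun _ _ => Subtype.ext (M.pr_lmul _ _), fun _ _ _ => Subtype.ext (M.pr_lmul _ _),
    fun _ => Subtype.ext (M.pr_lmul _ _)⟩

theorem pd_ind_cov (h1 : M.Cov.e 0 = 0) : (M.Cov.Ind h1).pd 1 := by
  refine pd_one_of_split _ fun Y _ _ N g hg hs => ?_
  have hinl : IsRHom M.Cov (M.Cov.Ind h1).toRRep (LinearMap.inl ℂ _ _) :=
    ⟨by simp [RRep.Ind_toRRep], by simp [RRep.Ind_toRRep], by simp [RRep.Ind_toRRep]⟩
  have hk := hinl.comp M.isRHom_prC
  obtain ⟨f', hf'⟩ := Module.projective_lifting_property g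
    (LinearMap.inl ℂ _ _ ∘ₗ M.prC ∘ₗ TensorProduct.mk ℂ R V 1) hs
  let f : V →ₗ[ℂ] Y := ∑ k ∈ range 6, N.e k ∘ₗ f' ∘ₗ M.e k
  have hf : ∀ m, g (f m) = (M.prC (1 ⊗ₜ m), 0) := by
    intro m
    have h2 : ∀ m, g (f' m) = (LinearMap.inl ℂ _ _ ∘ₗ M.prC) (1 ⊗ₜ m) :=
      fun m => LinearMap.congr_fun hf' m
    have h5 : g (f m) = ∑ k ∈ range 6, g (N.e k (f' (M.e k m))) := by
      simp only [f, LinearMap.sum_apply, LinearMap.comp_apply, map_sum]
    simp only [h5, hg.he, h2, ← hk.he]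
    rw [← map_sum]
    refine Prod.ext (Subtype.ext ?_) rfl
    change M.pr _ = M.pr _
    rw [← M.pr_pr (1 ⊗ₜ m), pr_tmul]
    congr 1
    refine Finset.sum_congr rfl fun k _ => ?_
    change lmulT V (Re k) (1 ⊗ₜ M.e k m) = _
    simp
  have hΦ := isRHom_freeLift N.toRRep f
  have h3 : ∀ x, g (freeLift N.toRRep f x) = (M.prC x, 0) :=
    free_ext (hg.toIsRHom.comp hΦ) hk (fun m => by simp [hf])
  have h4 : ∀ x : M.covS, g (freeLift N.toRRep f x) = (x, 0) := fun x => by
    rw [h3]; exact Prod.ext (Subtype.ext x.2) rfl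
  have hΦ' : IsRHom M.Cov N.toRRep (freeLift N.toRRep f ∘ₗ M.covS.subtype) :=
    ⟨fun i x => hΦ.he i x, fun i j x => hΦ.hε i j x, fun x => hΦ.hd x⟩
  refine ⟨_, hΦ'.adj h1, fun x => ?_⟩
  simp only [adj_apply, map_add, hg.h0, hg.h1, LinearMap.comp_apply, Submodule.subtype_apply, h4,
    RRep.Ind_n0, RRep.Ind_n1]
  refine Prod.ext (by simp) (Prod.ext (funext fun v => ?_) (funext fun v => ?_)) <;>
    fin_cases v <;> simp

end RRep

theorem pd_ind_of_supp (k : ℕ) : ∀ (j : ℕ), 6 ≤ j + k → 1 ≤ j →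
    ∀ (V : Type) [AddCommGroup V] [Module ℂ V] (M : RRep V) (h0 : M.e 0 = 0), M.Supp j →
      (M.Ind h0).pd k := by
  induction k with
  | zero =>
    intro j hj _ V _ _ M h0 h
    have : Subsingleton V := by
      refine subsingleton_of_forall_eq 0 fun x => ?_
      rw [← M.sum_e x]
      refine Finset.sum_eq_zero fun i hi => ?_
      rw [h i (by have := Finset.mem_range.1 hi; omega)]
      rfl
    exact pd_zero _
  | succ k ih =>
    intro j hj hj1 V _ _ M h0 h
    have h1 := h.cov 0 (by omega)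
    have h2 := h.om 0 (by omega)
    exact (M.ses_cov h0 h1 h2).pd₃ (ih (j + 1) (by omega) (by omega) _ M.Om h2 h.om)
      ((M.pd_ind_cov h1).mono (by omega))

theorem pd_ind (M : RRep V) (h0 : M.e 0 = 0) : (M.Ind h0).pd 5 :=
  pd_ind_of_supp 5 1 le_rfl le_rfl V M h0 fun i hi => by
    obtain rfl : i = 0 := by omega
    exact h0

/-- the simple representation at the vertex `j` -/
def simple (j : ℕ) (hj : j < 6) : RRep ℂ where
  e i := if i = j then 1 else 0
  ε _ _ := 0
  d := 0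
  rel :=
    { εε := by simp
      dd := by simp
      dε := by simp
      ee := fun i k => by split_ifs <;> simp_all
      sum_e := by simp [hj]
      εe := by simp
      de := by simp }

/-- the two-dimensional representation on the vertices `j` and `j + 1` -/
def test (j : ℕ) (hj : j + 1 < 6) : RRep (ℂ × ℂ) where
  e i := LinearMap.prodMap (if i = j then 1 else 0) (if i = j + 1 then 1 else 0)
  ε _ _ := 0
  d := LinearMap.inr ℂ ℂ ℂ ∘ₗ LinearMap.fst ℂ ℂ ℂ
  rel :=
    { εε := by simp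
      dd := by ext <;> simp
      dε := by simp
      ee := fun i k => by
        refine LinearMap.ext fun x => ?_
        split_ifs <;> simp_all
      sum_e := by
        refine LinearMap.ext fun x => Prod.ext ?_ ?_
        · simp [Prod.fst_sum, apply_ite (fun T : Module.End ℂ ℂ => T x.1), show j < 6 by omega]
        · simp [Prod.snd_sum, apply_ite (fun T : Module.End ℂ ℂ => T x.2), hj]
      εe := by simp
      de := fun i => by
        refine LinearMap.ext fun x => ?_
        by_cases h : i = j <;> simp [h] }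

theorem not_pd_ind_one {j : ℕ} (hj : j + 1 < 6) (M : RRep V) (h0 : M.e 0 = 0) (h : M.Supp j)
    {m : V} (hm : M.e j m = m) (hm0 : m ≠ 0) (hd : M.d m = 0) : ¬ (M.Ind h0).pd 1 := by
  intro hpd
  obtain ⟨lam, hlam⟩ := Module.Projective.exists_dual_eq_one ℂ hm0
  have hz : ∀ a b x, M.e j (M.ε a b x) = 0 := by
    intro a b x
    cases j with
    | zero => exact M.e0_ε a b x
    | succ j => rw [← M.ε_e, h j (by omega)]; simp
  have hz' : ∀ x, M.e j (M.d x) = 0 := by
    intro x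
    cases j with
    | zero => exact M.e0_d x
    | succ j => rw [← M.d_e, h j (by omega)]; simp
  have hg : IsRHom (test j hj) (simple j (by omega)) (LinearMap.fst ℂ ℂ ℂ) :=
    ⟨fun _ _ => rfl, fun _ _ _ => rfl, fun _ => rfl⟩
  have hh : IsAHom (M.Ind h0) (simple j (by omega)).toA
      (lam ∘ₗ M.e j ∘ₗ LinearMap.fst ℂ _ _) :=
    { he := fun i x => by
        by_cases hi : i = j
        · simp [RRep.Ind_toRRep, RRep.toA, simple, hi, M.e_self]
        · simp [RRep.Ind_toRRep, RRep.toA, simple, hi, M.e_ne (Ne.symm hi)]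
      hε := fun a b x => by simp [RRep.Ind_toRRep, RRep.toA, simple, hz]
      hd := fun x => by simp [RRep.Ind_toRRep, RRep.toA, simple, hz']
      h0 := fun v x => by simp [RRep.Ind_n0, RRep.toA]
      h1 := fun v x => by simp [RRep.Ind_n1, RRep.toA] }
  obtain ⟨k, hk0, hk1, hk2⟩ := lift_of_pd_one hpd hg.toA hh Prod.fst_surjective
  have h1 := hk1 (m, 0)
  have h2 := hk2 (m, 0)
  have h3 : (M.Ind h0).d (m, 0) = 0 := by simp [RRep.Ind_toRRep, hd]
  rw [h3, hk0] at h2
  have h4 := congrArg Prod.snd h2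
  simp [hm, hlam] at h1
  simp [RRep.toA, test, h1] at h4

theorem not_pd_ind_of_supp (k : ℕ) : ∀ (j : ℕ), j + k = 4 → 1 ≤ j →
    ∀ (V : Type) [AddCommGroup V] [Module ℂ V] (M : RRep V) (h0 : M.e 0 = 0), M.Supp j →
      ∀ m : V, M.e j m = m → m ≠ 0 → M.d m = 0 → ¬ (M.Ind h0).pd (k + 1) := by
  induction k with
  | zero =>
    intro j hj _ V _ _ M h0 h m hm hm0 hd
    exact not_pd_ind_one (by omega) M h0 h hm hm0 hd
  | succ k ih =>
    intro j hj hj1 V _ _ M h0 h m hm hm0 hd hpd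
    have h1 := h.cov 0 (by omega)
    have h2 := h.om 0 (by omega)
    have h3 := (M.ses_cov h0 h1 h2).pd₁ ((M.pd_ind_cov h1).mono (by omega)) hpd
    have hmem : (Rd * Re j) ⊗ₜ[ℂ] m ∈ M.omS := by
      refine ⟨?_, ?_⟩
      · have := M.pr_e Rd j m
        rwa [hm] at this
      · change M.mu _ = 0
        simp [RRep.mu_tmul, hm, hd]
    refine ih (j + 1) (by omega) (by omega) _ M.Om h2 h.om ⟨_, hmem⟩ (Subtype.ext ?_) ?_
      (Subtype.ext ?_) h3
    · change lmulT V (Re (j + 1)) ((Rd * Re j) ⊗ₜ[ℂ] m) = (Rd * Re j) ⊗ₜ[ℂ] m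
      rw [lmulT_tmul, relR.de, ← mul_assoc, relR.e_self]
    · intro h4
      obtain ⟨lam, hlam⟩ := Module.Projective.exists_dual_eq_one ℂ hm0
      have h5 : (Rd * Re j) ⊗ₜ[ℂ] m = 0 := congrArg Subtype.val h4
      have h6 := congrArg (freeLift (test j (by omega)) (LinearMap.inl ℂ ℂ ℂ ∘ₗ lam)) h5
      simp [test, hlam] at h6
    · change lmulT V Rd ((Rd * Re j) ⊗ₜ[ℂ] m) = 0
      rw [lmulT_tmul, ← mul_assoc, relR.dd, zero_mul, zero_tmul]

end Crest.Agent.R178
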