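import Crest.Agent.R178.Rep

/-!
Twisting the differential, the functor `E` and the induced representation `Ind`.
-/

set_option autoImplicit false

noncomputable section

namespace Crest.Agent.R178

open Finset

/-- the commutation relations of `gl₂` -/
def GL2Rel {B : Type} [Ring B] (E : Fin 2 → Fin 2 → B) : Prop :=
  ∀ i j k l, E i j * E k l - E k l * E i j =
    (if j = k then E i l else 0) - (if l = i then E k j else 0)

theorem GRel.twist {B : Type} [Ring B] [Algebra ℂ B] {ε : Fin 2 → Fin 2 → B} {d : B}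
    (h : GRel ε d) (E : Fin 2 → Fin 2 → B) (cε : ∀ i j k l, E k l * ε i j = ε i j * E k l)
    (cd : ∀ k l, E k l * d = d * E k l) (gl : GL2Rel E) :
    GRel ε (d + ∑ k, ∑ l, ε k l * E k l) where
  εε := h.εε
  dε i j := by
    have : ∀ k l, ε k l * E k l * ε i j + ε i j * (ε k l * E k l) = 0 := by
      intro k l
      rw [mul_assoc, cε, ← mul_assoc, ← mul_assoc, ← add_mul, h.εε, zero_mul]
    rw [← h.dε i j]
    simp only [Fin.sum_univ_two, add_mul, mul_add]
    linear_combination (norm := abel1) this 0 0 + this 0 1 + this 1 0 + this 1 1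
  dd := by
    have two : ∀ x : B, x + x = 0 → x = 0 := by
      intro x hx
      have : (2 : ℂ) • x = 0 := by rw [two_smul, hx]
      simpa using this
    have anti : ∀ i j k l, ε k l * ε i j = -(ε i j * ε k l) := fun i j k l =>
      eq_neg_of_add_eq_zero_right (h.εε i j k l)
    have h1 : ∀ k l, d * (ε k l * E k l) + ε k l * E k l * d =
        -(ε k 0 * ε 0 l * E k l + ε k 1 * ε 1 l * E k l) := by
      intro k l
      rw [mul_assoc, cd, ← mul_assoc, ← mul_assoc, ← add_mul, h.dε, Fin.sum_univ_two, neg_mul,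
        add_mul]
    have h2 : ∀ i j k l, ε i j * E i j * (ε k l * E k l) + ε k l * E k l * (ε i j * E i j) =
        ε i j * ε k l * ((if j = k then E i l else 0) - (if l = i then E k j else 0)) := by
      intro i j k l
      rw [← gl, mul_assoc, ← mul_assoc (E i j), cε, mul_assoc (ε k l) (E k l),
        ← mul_assoc (E k l), cε, ← mul_assoc, ← mul_assoc, ← mul_assoc, ← mul_assoc,
        anti i j k l]
      noncomm_ring
    have h3 : ∀ i j, ε i j * E i j * (ε i j * E i j) = 0 := by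
      intro i j
      rw [mul_assoc, ← mul_assoc (E i j), cε, ← mul_assoc, ← mul_assoc, two _ (h.εε i j i j),
        zero_mul, zero_mul]
    have s00 := two _ (h.εε 0 0 0 0)
    have s11 := two _ (h.εε 1 1 1 1)
    have a1 := h2 0 0 0 1
    have a2 := h2 0 0 1 0
    have a3 := h2 0 0 1 1
    have a4 := h2 0 1 1 0
    have a5 := h2 0 1 1 1
    have a6 := h2 1 0 1 1
    have b1 := h1 0 0
    have b2 := h1 0 1
    have b3 := h1 1 0
    have b4 := h1 1 1
    rw [s00, zero_mul] at b1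
    rw [s11, zero_mul, anti 0 1 1 0] at b4
    rw [anti 0 0 1 0, anti 1 0 1 1] at b3
    simp only [if_true, Fin.zero_eq_one_iff, Fin.one_eq_zero_iff, OfNat.ofNat_ne_one, if_false,
      mul_sub, mul_zero, neg_mul] at a1 a2 a3 a4 a5 a6 b1 b2 b3 b4
    simp only [Fin.sum_univ_two, add_mul, mul_add]
    linear_combination (norm := abel1) h.dd + b1 + b2 + b3 + b4 + a1 + a2 + a3 + a4 + a5 + a6
      + h3 0 0 + h3 0 1 + h3 1 0 + h3 1 1

theorem RRel.twist {B : Type} [Ring B] [Algebra ℂ B] {e : ℕ → B} {ε : Fin 2 → Fin 2 → B} {d : B}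
    (h : RRel e ε d) (E : Fin 2 → Fin 2 → B) (cε : ∀ i j k l, E k l * ε i j = ε i j * E k l)
    (cd : ∀ k l, E k l * d = d * E k l) (ce : ∀ i k l, E k l * e i = e i * E k l)
    (gl : GL2Rel E) : RRel e ε (d + ∑ k, ∑ l, ε k l * E k l) :=
  { h.toGRel.twist E cε cd gl with
    ee := h.ee
    sum_e := h.sum_e
    εe := h.εe
    de := fun i => by
      simp only [add_mul, mul_add, Finset.sum_mul, Finset.mul_sum, h.de, mul_assoc, ce]
      simp only [← mul_assoc, h.εe] }

theorem RRel.map {B C : Type} [Ring B] [Ring C] (φ : B →+* C) {e : ℕ → B}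
    {ε : Fin 2 → Fin 2 → B} {d : B} (h : RRel e ε d) :
    RRel (fun i => φ (e i)) (fun i j => φ (ε i j)) (φ d) where
  εε i j k l := by simpa using congrArg φ (h.εε i j k l)
  dd := by simpa using congrArg φ h.dd
  dε i j := by simpa using congrArg φ (h.dε i j)
  ee i j := by
    have := congrArg φ (h.ee i j)
    split_ifs at this ⊢ <;> simpa using this
  sum_e := by simpa using congrArg φ h.sum_e
  εe a b i := by simpa using congrArg φ (h.εe a b i)
  de i := by simpa using congrArg φ (h.de i)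

variable {U V W : Type} [AddCommGroup U] [Module ℂ U] [AddCommGroup V] [Module ℂ V]
  [AddCommGroup W] [Module ℂ W]

/-- an operator acting on both coordinates -/
def piOp : Module.End ℂ V →+* Module.End ℂ (Fin 2 → V) where
  toFun T := T.compLeft (Fin 2)
  map_one' := rfl
  map_mul' _ _ := rfl
  map_zero' := rfl
  map_add' _ _ := rfl

@[simp] theorem piOp_apply (T : Module.End ℂ V) (y : Fin 2 → V) (v : Fin 2) :
    piOp T y v = T (y v) := rfl

/-- the dual standard representation of `gl₂` -/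
def rho (k l : Fin 2) : Module.End ℂ (Fin 2 → V) :=
  -(LinearMap.single ℂ (fun _ => V) l ∘ₗ LinearMap.proj k)

theorem rho_apply (k l : Fin 2) (y : Fin 2 → V) (v : Fin 2) :
    rho k l y v = -(if v = l then y k else 0) := by
  simp [rho, Pi.single_apply]

/-- the off-diagonal part of the odd generators -/
def aOp (i j : Fin 2) : Module.End ℂ (Fin 2 → V) :=
  LinearMap.single ℂ (fun _ => V) i ∘ₗ LinearMap.proj j - (if i = j then 1 else 0)

theorem aOp_apply (i j : Fin 2) (y : Fin 2 → V) (v : Fin 2) :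
    aOp i j y v = (if v = i then y j else 0) - (if i = j then y v else 0) := by
  by_cases h : i = j <;> simp [aOp, Pi.single_apply, h]

theorem rho_comm (T : Module.End ℂ V) (k l : Fin 2) : rho k l * piOp T = piOp T * rho k l := by
  refine LinearMap.ext fun y => funext fun v => ?_
  simp only [Module.End.mul_apply, rho_apply, piOp_apply]
  split_ifs <;> simp

theorem gl_rho : GL2Rel (rho (V := V)) := by
  intro i j k l
  refine LinearMap.ext fun y => funext fun v => ?_
  fin_cases i <;> fin_cases j <;> fin_cases k <;> fin_cases l <;> fin_cases v <;>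
    simp [rho_apply]

/-- the twist of `V* ⊗ M` -/
def RRep.tw (M : RRep V) : RRep (Fin 2 → V) where
  e i := piOp (M.e i)
  ε i j := piOp (M.ε i j)
  d := piOp M.d + ∑ k, ∑ l, piOp (M.ε k l) * rho k l
  rel := (M.rel.map piOp).twist rho (fun _ _ _ _ => rho_comm _ _ _) (fun _ _ => rho_comm _ _ _)
    (fun _ _ _ => rho_comm _ _ _) gl_rho

@[simp] theorem RRep.tw_e (M : RRep V) (i : ℕ) (y : Fin 2 → V) (v : Fin 2) :
    M.tw.e i y v = M.e i (y v) := rfl
@[simp] theorem RRep.tw_ε (M : RRep V) (i j : Fin 2) (y : Fin 2 → V) (v : Fin 2) :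
    M.tw.ε i j y v = M.ε i j (y v) := rfl
theorem RRep.tw_d (M : RRep V) (y : Fin 2 → V) (v : Fin 2) :
    M.tw.d y v = M.d (y v) - (M.ε 0 v (y 0) + M.ε 1 v (y 1)) := by
  fin_cases v <;> simp [RRep.tw, Fin.sum_univ_two, rho_apply] <;> abel

theorem compLeft_aOp (f : V →ₗ[ℂ] W) (i j : Fin 2) (y : Fin 2 → V) :
    f.compLeft (Fin 2) (aOp i j y) = aOp i j (f.compLeft (Fin 2) y) := by
  funext v
  simp only [LinearMap.compLeft_apply, Function.comp_apply, aOp_apply]
  split_ifs <;> simp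

theorem compLeft_single (f : V →ₗ[ℂ] W) (v : Fin 2) (x : V) :
    f.compLeft (Fin 2) (Pi.single v x) = Pi.single v (f x) := by
  funext w
  simp only [LinearMap.compLeft_apply, Function.comp_apply, Pi.single_apply]
  split_ifs <;> simp

theorem RRep.tw_e_aOp (M : RRep V) (k : ℕ) (i j : Fin 2) (y : Fin 2 → V) :
    M.tw.e k (aOp i j y) = aOp i j (M.tw.e k y) := compLeft_aOp _ _ _ _
theorem RRep.tw_ε_aOp (M : RRep V) (k l i j : Fin 2) (y : Fin 2 → V) :
    M.tw.ε k l (aOp i j y) = aOp i j (M.tw.ε k l y) := compLeft_aOp _ _ _ _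
theorem RRep.tw_e_single (M : RRep V) (k : ℕ) (v : Fin 2) (x : V) :
    M.tw.e k (Pi.single v x) = Pi.single v (M.e k x) := compLeft_single _ _ _
theorem RRep.tw_ε_single (M : RRep V) (k l v : Fin 2) (x : V) :
    M.tw.ε k l (Pi.single v x) = Pi.single v (M.ε k l x) := compLeft_single _ _ _
theorem RRep.tw_d_aOp (M : RRep V) (i j : Fin 2) (y : Fin 2 → V) :
    M.tw.d (aOp i j y) = aOp i j (M.tw.d y) - (aOp 0 j (M.tw.ε i 0 y) + aOp 1 j (M.tw.ε i 1 y))
      + (aOp i 0 (M.tw.ε 0 j y) + aOp i 1 (M.tw.ε 1 j y)) := by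
  funext v
  fin_cases i <;> fin_cases j <;> fin_cases v <;> simp [aOp_apply, RRep.tw_d] <;> abel

/-- odd generators on `E M` -/
def RRep.Eε (M : RRep V) (i j : Fin 2) : Module.End ℂ ((Fin 2 → V) × (Fin 2 → V)) :=
  LinearMap.prod (-M.tw.ε i j ∘ₗ LinearMap.fst ℂ _ _)
    (M.tw.ε i j ∘ₗ LinearMap.snd ℂ _ _ + aOp i j ∘ₗ LinearMap.fst ℂ _ _)

theorem RRep.Eε_apply (M : RRep V) (i j : Fin 2) (y : (Fin 2 → V) × (Fin 2 → V)) :
    M.Eε i j y = (-M.tw.ε i j y.1, M.tw.ε i j y.2 + aOp i j y.1) := rfl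

/-- the functor `E` -/
def RRep.E (M : RRep V) (h0 : M.e 0 = 0) : RRep ((Fin 2 → V) × (Fin 2 → V)) where
  e i := (M.tw.e (i + 1)).prodMap (M.tw.e i)
  ε := M.Eε
  d := (-M.tw.d).prodMap M.tw.d
  rel :=
    { εε := fun i j k l => by
        refine LinearMap.ext fun y => Prod.ext ?_ ?_
        · simp [RRep.Eε_apply, M.tw.ε_ε i j k l]
        · simp [RRep.Eε_apply, M.tw.ε_ε i j k l, RRep.tw_ε_aOp]
          abel
      dd := by
        refine LinearMap.ext fun y => Prod.ext ?_ ?_ <;> simp [M.tw.d_d]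
      dε := fun i j => by
        refine LinearMap.ext fun y => Prod.ext ?_ ?_
        · simp [RRep.Eε_apply, M.tw.d_ε, Fin.sum_univ_two]
        · simp [RRep.Eε_apply, M.tw.d_ε, Fin.sum_univ_two, RRep.tw_ε_aOp, RRep.tw_d_aOp]
          abel
      ee := fun i j => by
        split_ifs with h <;> refine LinearMap.ext fun y => Prod.ext ?_ ?_ <;>
          simp [M.tw.e_e, h]
      sum_e := by
        refine LinearMap.ext fun y => Prod.ext ?_ ?_
        · funext v
          have h1 := M.sum_e (y.1 v)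
          have h2 := Finset.sum_range_succ' (fun i => M.e i (y.1 v)) 6
          rw [Finset.sum_range_succ, h1, M.rel.e_big le_rfl, h0] at h2
          simpa [Prod.fst_sum] using h2.symm
        · simp [Prod.snd_sum, M.tw.sum_e]
      εe := fun a b i => by
        refine LinearMap.ext fun y => Prod.ext ?_ ?_ <;>
          simp [RRep.Eε_apply, M.tw.ε_e, RRep.tw_e_aOp]
      de := fun i => by
        refine LinearMap.ext fun y => Prod.ext ?_ ?_ <;> simp [M.tw.d_e] }

theorem RRep.E_e (M : RRep V) (h0 : M.e 0 = 0) (i : ℕ) (y : (Fin 2 → V) × (Fin 2 → V)) :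
    (M.E h0).e i y = (M.tw.e (i + 1) y.1, M.tw.e i y.2) := rfl
theorem RRep.E_ε (M : RRep V) (h0 : M.e 0 = 0) (i j : Fin 2) (y : (Fin 2 → V) × (Fin 2 → V)) :
    (M.E h0).ε i j y = (-M.tw.ε i j y.1, M.tw.ε i j y.2 + aOp i j y.1) := rfl
theorem RRep.E_d (M : RRep V) (h0 : M.e 0 = 0) (y : (Fin 2 → V) × (Fin 2 → V)) :
    (M.E h0).d y = (-M.tw.d y.1, M.tw.d y.2) := rfl

/-- the induced representation -/
def RRep.Ind (M : RRep V) (h0 : M.e 0 = 0) : ARep (V × ((Fin 2 → V) × (Fin 2 → V))) where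
  toRRep := M.prod (M.E h0)
  n0 v := LinearMap.inr ℂ _ _ ∘ₗ LinearMap.inl ℂ _ _ ∘ₗ LinearMap.single ℂ (fun _ => V) v ∘ₗ
    LinearMap.fst ℂ _ _
  n1 v := LinearMap.inr ℂ _ _ ∘ₗ LinearMap.inr ℂ _ _ ∘ₗ LinearMap.single ℂ (fun _ => V) v ∘ₗ
    LinearMap.fst ℂ _ _
  arel := { (M.prod (M.E h0)).rel with
    n00 := fun v w => LinearMap.ext fun y => by simp
    n01 := fun v w => LinearMap.ext fun y => by simp
    n10 := fun v w => LinearMap.ext fun y => by simp
    n11 := fun v w => LinearMap.ext fun y => by simp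
    n0e := fun v => LinearMap.ext fun y => by simp [h0]
    n1e := fun v => LinearMap.ext fun y => by simp [h0]
    en0 := fun i v => LinearMap.ext fun y => by
      simp [RRep.E_e, RRep.tw_e_single]
    en1 := fun i v => LinearMap.ext fun y => by
      simp [RRep.E_e, RRep.tw_e_single]
    εn0 := fun i j v => LinearMap.ext fun y => by
      refine Prod.ext ?_ (Prod.ext (funext fun w => ?_) (funext fun w => ?_)) <;>
        fin_cases i <;> fin_cases j <;> fin_cases v <;>
        first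
          | (fin_cases w <;> simp [RRep.E_ε, aOp_apply])
          | simp
    εn1 := fun i j v => LinearMap.ext fun y => by
      simp [RRep.E_ε, RRep.tw_ε_single]
    dn0 := fun v => LinearMap.ext fun y => by
      refine Prod.ext (by simp [Fin.sum_univ_two])
        (Prod.ext (funext fun w => ?_) (by simp [RRep.E_d, Fin.sum_univ_two]))
      fin_cases v <;> fin_cases w <;> simp [RRep.E_d, RRep.tw_d, Fin.sum_univ_two]
    dn1 := fun v => LinearMap.ext fun y => by
      refine Prod.ext (by simp [Fin.sum_univ_two])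
        (Prod.ext (by simp [RRep.E_d, Fin.sum_univ_two]) (funext fun w => ?_))
      fin_cases v <;> fin_cases w <;> simp [RRep.E_d, RRep.tw_d, Fin.sum_univ_two] }

theorem RRep.Ind_toRRep (M : RRep V) (h0 : M.e 0 = 0) : (M.Ind h0).toRRep = M.prod (M.E h0) := rfl
theorem RRep.Ind_n0 (M : RRep V) (h0 : M.e 0 = 0) (v : Fin 2)
    (y : V × ((Fin 2 → V) × (Fin 2 → V))) :
    (M.Ind h0).n0 v y = (0, (Pi.single v y.1, 0)) := rfl
theorem RRep.Ind_n1 (M : RRep V) (h0 : M.e 0 = 0) (v : Fin 2)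
    (y : V × ((Fin 2 → V) × (Fin 2 → V))) :
    (M.Ind h0).n1 v y = (0, (0, Pi.single v y.1)) := rfl

/-- the sequence `0 → E M → Ind M → M → 0` -/
theorem ses_Ind (M : RRep V) (h0 : M.e 0 = 0) :
    SES (M.E h0).toA (M.Ind h0) M.toA (LinearMap.inr ℂ _ _) (LinearMap.fst ℂ _ _) where
  hf :=
    { he := fun i x => by simp [RRep.Ind_toRRep, RRep.toA]
      hε := fun i j x => by simp [RRep.Ind_toRRep, RRep.toA]
      hd := fun x => by simp [RRep.Ind_toRRep, RRep.toA]
      h0 := fun v x => by simp [RRep.Ind_n0, RRep.toA, Prod.ext_iff]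
      h1 := fun v x => by simp [RRep.Ind_n1, RRep.toA, Prod.ext_iff] }
  hg :=
    { he := fun i x => rfl
      hε := fun i j x => rfl
      hd := fun x => rfl
      h0 := fun v x => rfl
      h1 := fun v x => rfl }
  inj := LinearMap.inr_injective
  exact := Function.Exact.inr_fst
  surj := Prod.fst_surjective

theorem IsRHom.tw {M : RRep V} {N : RRep W} {f : V →ₗ[ℂ] W} (h : IsRHom M N f) :
    IsRHom M.tw N.tw (f.compLeft (Fin 2)) where
  he i x := funext fun v => h.he i _
  hε i j x := funext fun v => h.hε i j _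
  hd x := funext fun v => by simp [RRep.tw_d, h.hd, h.hε]

/-- the map induced on `Ind` -/
def indMap (f : V →ₗ[ℂ] W) :
    (V × ((Fin 2 → V) × (Fin 2 → V))) →ₗ[ℂ] (W × ((Fin 2 → W) × (Fin 2 → W))) :=
  f.prodMap ((f.compLeft (Fin 2)).prodMap (f.compLeft (Fin 2)))

theorem IsRHom.ind {M : RRep V} {N : RRep W} {f : V →ₗ[ℂ] W} (h : IsRHom M N f)
    (hM : M.e 0 = 0) (hN : N.e 0 = 0) : IsAHom (M.Ind hM) (N.Ind hN) (indMap f) where
  he i x := by simp [RRep.Ind_toRRep, indMap, RRep.E_e, h.he, h.tw.he]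
  hε i j x := by
    simp [RRep.Ind_toRRep, indMap, RRep.E_ε, h.hε, h.tw.hε, compLeft_aOp]
  hd x := by simp [RRep.Ind_toRRep, indMap, RRep.E_d, h.hd, h.tw.hd]
  h0 v x := by
    simp [RRep.Ind_n0, indMap, compLeft_single]
  h1 v x := by
    simp [RRep.Ind_n1, indMap, compLeft_single]

theorem ses_ind {L : RRep U} {M : RRep V} {N : RRep W} {f : U →ₗ[ℂ] V} {g : V →ₗ[ℂ] W}
    (hf : IsRHom L M f) (hg : IsRHom M N g) (inj : Function.Injective f)
    (ex : Function.Exact f g) (surj : Function.Surjective g)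
    (hL : L.e 0 = 0) (hM : M.e 0 = 0) (hN : N.e 0 = 0) :
    SES (L.Ind hL) (M.Ind hM) (N.Ind hN) (indMap f) (indMap g) where
  hf := hf.ind hL hM
  hg := hg.ind hM hN
  inj := by
    rintro ⟨a, b, c⟩ ⟨a', b', c'⟩ h
    simp only [indMap, LinearMap.prodMap_apply, Prod.mk.injEq] at h
    exact Prod.ext (inj h.1) (Prod.ext (funext fun v => inj (congrFun h.2.1 v))
      (funext fun v => inj (congrFun h.2.2 v)))
  exact := by
    rintro ⟨a, b, c⟩
    constructor
    · intro h
      simp only [indMap, LinearMap.prodMap_apply, Prod.mk_eq_zero] at h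
      obtain ⟨a', ha⟩ := (ex a).1 h.1
      choose b' hb using fun v => (ex (b v)).1 (congrFun h.2.1 v)
      choose c' hc using fun v => (ex (c v)).1 (congrFun h.2.2 v)
      exact ⟨(a', b', c'), Prod.ext ha (Prod.ext (funext hb) (funext hc))⟩
    · rintro ⟨⟨a', b', c'⟩, h⟩
      rw [← h]
      exact Prod.ext (ex.apply_apply_eq_zero _) (Prod.ext
        (funext fun v => ex.apply_apply_eq_zero _) (funext fun v => ex.apply_apply_eq_zero _))
  surj := by
    rintro ⟨a, b, c⟩
    obtain ⟨a', ha⟩ := surj a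
    choose b' hb using fun v => surj (b v)
    choose c' hc using fun v => surj (c v)
    exact ⟨(a', b', c'), Prod.ext ha (Prod.ext (funext hb) (funext hc))⟩

namespace ARep

variable (N : ARep W)

theorem n00 (v w : Fin 2) (x : W) : N.n0 v (N.n0 w x) = 0 := LinearMap.congr_fun (N.arel.n00 v w) x
theorem n01 (v w : Fin 2) (x : W) : N.n0 v (N.n1 w x) = 0 := LinearMap.congr_fun (N.arel.n01 v w) x
theorem n10 (v w : Fin 2) (x : W) : N.n1 v (N.n0 w x) = 0 := LinearMap.congr_fun (N.arel.n10 v w) x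
theorem n11 (v w : Fin 2) (x : W) : N.n1 v (N.n1 w x) = 0 := LinearMap.congr_fun (N.arel.n11 v w) x
theorem n0e (v : Fin 2) (x : W) : N.n0 v (N.e 0 x) = 0 := LinearMap.congr_fun (N.arel.n0e v) x
theorem n1e (v : Fin 2) (x : W) : N.n1 v (N.e 0 x) = 0 := LinearMap.congr_fun (N.arel.n1e v) x
theorem en0 (i : ℕ) (v : Fin 2) (x : W) : N.e i (N.n0 v x) = N.n0 v (N.e (i + 1) x) :=
  LinearMap.congr_fun (N.arel.en0 i v) x
theorem en1 (i : ℕ) (v : Fin 2) (x : W) : N.e i (N.n1 v x) = N.n1 v (N.e i x) :=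
  LinearMap.congr_fun (N.arel.en1 i v) x
theorem εn0 (i j v : Fin 2) (x : W) : N.ε i j (N.n0 v x) = -(N.n0 v (N.ε i j x)) +
    ((if j = v then N.n1 i x else 0) - (if i = j then N.n1 v x else 0)) := by
  have := LinearMap.congr_fun (N.arel.εn0 i j v) x
  split_ifs at this ⊢ <;> simpa using this
theorem εn1 (i j v : Fin 2) (x : W) : N.ε i j (N.n1 v x) = N.n1 v (N.ε i j x) :=
  LinearMap.congr_fun (N.arel.εn1 i j v) x
theorem dn0 (v : Fin 2) (x : W) : N.d (N.n0 v x) =
    -(N.n0 v (N.d x) - (N.n0 0 (N.ε v 0 x) + N.n0 1 (N.ε v 1 x))) := by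
  simpa [Fin.sum_univ_two] using LinearMap.congr_fun (N.arel.dn0 v) x
theorem dn1 (v : Fin 2) (x : W) : N.d (N.n1 v x) =
    N.n1 v (N.d x) - (N.n1 0 (N.ε v 0 x) + N.n1 1 (N.ε v 1 x)) := by
  simpa [Fin.sum_univ_two] using LinearMap.congr_fun (N.arel.dn1 v) x

end ARep

/-- the adjoint map out of `Ind M` -/
def adj (N : ARep W) (f : V →ₗ[ℂ] W) : (V × ((Fin 2 → V) × (Fin 2 → V))) →ₗ[ℂ] W :=
  f.coprod ((N.n0 0 ∘ₗ f ∘ₗ LinearMap.proj (0 : Fin 2) +
    N.n0 1 ∘ₗ f ∘ₗ LinearMap.proj (1 : Fin 2)).coprod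
    (N.n1 0 ∘ₗ f ∘ₗ LinearMap.proj (0 : Fin 2) + N.n1 1 ∘ₗ f ∘ₗ LinearMap.proj (1 : Fin 2)))

theorem adj_apply (N : ARep W) (f : V →ₗ[ℂ] W) (x : V × ((Fin 2 → V) × (Fin 2 → V))) :
    adj N f x = f x.1 + ((N.n0 0 (f (x.2.1 0)) + N.n0 1 (f (x.2.1 1))) +
      (N.n1 0 (f (x.2.2 0)) + N.n1 1 (f (x.2.2 1)))) := rfl

theorem IsRHom.adj {M : RRep V} {N : ARep W} {f : V →ₗ[ℂ] W} (h : IsRHom M N.toRRep f)
    (h0 : M.e 0 = 0) : IsAHom (M.Ind h0) N (adj N f) where
  he i x := by simp [adj_apply, RRep.Ind_toRRep, RRep.E_e, h.he, N.en0, N.en1]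
  hε i j x := by
    fin_cases i <;> fin_cases j <;>
      simp [adj_apply, RRep.Ind_toRRep, RRep.E_ε, h.hε, N.εn0, N.εn1, aOp_apply] <;> abel
  hd x := by
    simp [adj_apply, RRep.Ind_toRRep, RRep.E_d, h.hd, h.hε, N.dn0, N.dn1, RRep.tw_d]
    abel
  h0 v x := by
    fin_cases v <;> simp [adj_apply, RRep.Ind_n0, N.n00, N.n01]
  h1 v x := by
    fin_cases v <;> simp [adj_apply, RRep.Ind_n1, N.n10, N.n11]

end Crest.Agent.R178
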