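import Crest.Agent.R178.Cone

/-!
The exterior algebra on the dual of `gl₂` with its differential, and the representations
`X L = Λ ⊗ L` attached to `gl₂`-modules.
-/

set_option autoImplicit false

noncomputable section

namespace Crest.Agent.R178

open Finset TensorProduct

/-- the space of generators -/
abbrev VI : Type := Fin 2 × Fin 2 → ℂ
/-- the exterior algebra -/
abbrev Lam : Type := ExteriorAlgebra ℂ VI

/-- the generators of the exterior algebra -/
def eps (i j : Fin 2) : Lam := ExteriorAlgebra.ι ℂ (Pi.single (i, j) 1 : VI)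

theorem eps_anti (i j k l : Fin 2) : eps i j * eps k l + eps k l * eps i j = 0 :=
  ExteriorAlgebra.ι_add_mul_swap _ _

theorem ι_eq_sum (m : VI) : ExteriorAlgebra.ι ℂ m = ∑ p : Fin 2 × Fin 2, m p • eps p.1 p.2 := by
  conv_lhs => rw [pi_eq_sum_univ' m]
  simp [eps]

theorem lam_ind (p : Lam → Prop) (zero : p 0) (add : ∀ x y, p x → p y → p (x + y))
    (smul : ∀ (c : ℂ) x, p x → p (c • x)) (one : p 1)
    (step : ∀ i j x, p x → p (eps i j * x)) (x : Lam) : p x := by
  induction x using CliffordAlgebra.left_induction with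
  | algebraMap r => rw [Algebra.algebraMap_eq_smul_one]; exact smul _ _ one
  | add x y hx hy => exact add _ _ hx hy
  | ι_mul x m hx =>
    change p (ExteriorAlgebra.ι ℂ m * x)
    rw [ι_eq_sum, Finset.sum_mul]
    refine Finset.sum_induction _ p add zero fun a _ => ?_
    rw [smul_mul_assoc]
    exact smul _ _ (step _ _ _ hx)

/-- the differential of a generator -/
def Qe (i j : Fin 2) : Lam := -(eps i 0 * eps 0 j + eps i 1 * eps 1 j)

theorem eps_comm_mul (i j k l a b : Fin 2) :
    eps k l * eps a b * eps i j = eps i j * (eps k l * eps a b) := by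
  have h1 : eps a b * eps i j = -(eps i j * eps a b) := eq_neg_of_add_eq_zero_left (eps_anti _ _ _ _)
  have h2 : eps k l * eps i j = -(eps i j * eps k l) := eq_neg_of_add_eq_zero_left (eps_anti _ _ _ _)
  rw [mul_assoc, h1, mul_neg, ← mul_assoc, h2, neg_mul, neg_neg, mul_assoc]

theorem Qe_comm (i j k l : Fin 2) : Qe k l * eps i j = eps i j * Qe k l := by
  simp only [Qe, neg_mul, add_mul, eps_comm_mul i j, mul_neg, mul_add]

/-- the differential -/
def lamD : Module.End ℂ Lam := ∑ p : Fin 2 × Fin 2, LinearMap.mulLeft ℂ (Qe p.1 p.2) ∘ₗ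
  CliffordAlgebra.contractLeft (Q := (0 : QuadraticForm ℂ VI)) (LinearMap.proj p)

theorem lamD_one : lamD 1 = 0 := by
  simp [lamD, CliffordAlgebra.contractLeft_one]

theorem lamD_eps (i j : Fin 2) (x : Lam) : lamD (eps i j * x) = Qe i j * x - eps i j * lamD x := by
  have h : ∀ p : Fin 2 × Fin 2,
      CliffordAlgebra.contractLeft (Q := (0 : QuadraticForm ℂ VI)) (LinearMap.proj p) (eps i j * x)
      = (if p = (i, j) then x else 0) - eps i j *
        CliffordAlgebra.contractLeft (Q := (0 : QuadraticForm ℂ VI)) (LinearMap.proj p) x := by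
    intro p
    rw [eps, CliffordAlgebra.contractLeft_ι_mul]
    by_cases hp : p = (i, j) <;> simp [hp]
  simp only [lamD, LinearMap.sum_apply, LinearMap.comp_apply, LinearMap.mulLeft_apply, h, mul_sub,
    Finset.sum_sub_distrib, Finset.mul_sum, ← mul_assoc, Qe_comm, mul_ite, mul_zero]
  simp

theorem lamD_lamD (x : Lam) : lamD (lamD x) = 0 := by
  induction x using lam_ind with
  | zero => simp
  | add x y hx hy => simp [hx, hy]
  | smul c x hx => simp [hx]
  | one => simp [lamD_one]
  | step i j x hx =>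
    rw [lamD_eps, map_sub, lamD_eps, hx]
    simp only [Qe, neg_mul, add_mul, mul_assoc, map_neg, map_add, lamD_eps]
    noncomm_ring

/-- the homogeneous components -/
def lamE (i : ℕ) : Module.End ℂ Lam := GradedAlgebra.proj (fun i : ℕ => ⋀[ℂ]^i VI) i

theorem eps_mem (i j : Fin 2) : eps i j ∈ ⋀[ℂ]^1 VI := by
  rw [ExteriorAlgebra.exteriorPower, pow_one]
  exact ⟨_, rfl⟩

theorem lamE_eps (a b : Fin 2) (i : ℕ) (x : Lam) :
    lamE (i + 1) (eps a b * x) = eps a b * lamE i x := by
  rw [add_comm]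
  exact DirectSum.coe_decompose_mul_add_of_left_mem (fun i : ℕ => ⋀[ℂ]^i VI) (eps_mem a b)

theorem lamE_zero_eps (a b : Fin 2) (x : Lam) : lamE 0 (eps a b * x) = 0 :=
  DirectSum.coe_decompose_mul_of_left_mem_of_not_le (fun i : ℕ => ⋀[ℂ]^i VI) (eps_mem a b)
    (by omega)

theorem lamE_one (i : ℕ) : lamE i 1 = if i = 0 then 1 else 0 := by
  have h : (1 : Lam) ∈ ⋀[ℂ]^0 VI := SetLike.one_mem_graded (fun i : ℕ => ⋀[ℂ]^i VI)
  split_ifs with hi
  · subst hi
    exact DirectSum.decompose_of_mem_same (fun i : ℕ => ⋀[ℂ]^i VI) h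
  · exact DirectSum.decompose_of_mem_ne (fun i : ℕ => ⋀[ℂ]^i VI) h (Ne.symm hi)

theorem lamE_big {i : ℕ} (hi : 5 ≤ i) : lamE i = 0 := by
  have h : (⋀[ℂ]^i VI) = ⊥ := by
    rw [← Submodule.finrank_eq_zero, exteriorPower.finrank_eq]
    exact Nat.choose_eq_zero_of_lt (by simp; omega)
  refine LinearMap.ext fun x => ?_
  have : lamE i x ∈ ⋀[ℂ]^i VI := (DirectSum.decompose (fun i : ℕ => ⋀[ℂ]^i VI) x i).2
  rwa [h] at this

theorem lamE_D (x : Lam) : lamE 0 (lamD x) = 0 ∧ ∀ i, lamD (lamE i x) = lamE (i + 1) (lamD x) := by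
  induction x using lam_ind with
  | zero => simp
  | add x y hx hy => exact ⟨by simp [hx.1, hy.1], fun i => by simp [hx.2, hy.2]⟩
  | smul c x hx => exact ⟨by simp [hx.1], fun i => by simp [hx.2]⟩
  | one =>
    refine ⟨by simp [lamD_one], fun i => ?_⟩
    rw [lamE_one]
    split_ifs <;> simp [lamD_one]
  | step a b x hx =>
    refine ⟨by simp [lamD_eps, Qe, add_mul, mul_assoc, lamE_zero_eps], fun i => ?_⟩
    cases i with
    | zero => simp [lamD_eps, Qe, add_mul, mul_assoc, lamE_zero_eps, lamE_eps, hx.1]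
    | succ i => simp [lamD_eps, Qe, add_mul, mul_assoc, lamE_eps, hx.2]

/-- the exterior algebra as a representation -/
def lam : RRep Lam where
  e := lamE
  ε i j := LinearMap.mulLeft ℂ (eps i j)
  d := lamD
  rel :=
    { εε := fun i j k l => LinearMap.ext fun x => by
        simp [← mul_assoc, ← add_mul, eps_anti]
      dd := LinearMap.ext lamD_lamD
      dε := fun i j => LinearMap.ext fun x => by
        simp [lamD_eps, Qe, Fin.sum_univ_two, add_mul, mul_assoc]
      ee := fun i j => LinearMap.ext fun x => by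
        have h : lamE j x ∈ ⋀[ℂ]^j VI := (DirectSum.decompose (fun i : ℕ => ⋀[ℂ]^i VI) x j).2
        split_ifs with hij
        · subst hij
          exact DirectSum.decompose_of_mem_same (fun i : ℕ => ⋀[ℂ]^i VI) h
        · exact DirectSum.decompose_of_mem_ne (fun i : ℕ => ⋀[ℂ]^i VI) h (Ne.symm hij)
      sum_e := LinearMap.ext fun x => by
        induction x using lam_ind with
        | zero => simp
        | add x y hx hy => rw [map_add, map_add, hx, hy]
        | smul c x hx => rw [map_smul, map_smul, hx]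
        | one => simp [lamE_one]
        | step a b x hx =>
          rw [Finset.sum_range_succ, lamE_big le_rfl, add_zero] at hx
          rw [Finset.sum_range_succ']
          simp only [LinearMap.add_apply, LinearMap.sum_apply, lamE_eps, lamE_zero_eps, add_zero,
            Module.End.one_apply, ← Finset.mul_sum] at hx ⊢
          rw [hx]
      εe := fun a b i => LinearMap.ext fun x => (lamE_eps a b i x).symm
      de := fun i => LinearMap.ext fun x => (lamE_D x).2 i }

instance : Module.Finite ℂ Lam :=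
  Module.Finite.of_basis
    (Module.Basis.ExteriorAlgebra (Module.finBasis ℂ VI))

variable {L L' : Type} [AddCommGroup L] [Module ℂ L] [AddCommGroup L'] [Module ℂ L']

/-- operators on the exterior algebra acting on `Λ ⊗ L` -/
def rT (L : Type) [AddCommGroup L] [Module ℂ L] :
    Module.End ℂ Lam →+* Module.End ℂ (Lam ⊗[ℂ] L) :=
  (Module.End.rTensorAlgHom ℂ Lam L).toRingHom

@[simp] theorem rT_tmul (T : Module.End ℂ Lam) (x : Lam) (l : L) :
    rT L T (x ⊗ₜ l) = T x ⊗ₜ l := rfl

theorem lTensor_rT (f : L →ₗ[ℂ] L') (T : Module.End ℂ Lam) (x : Lam ⊗[ℂ] L) :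
    f.lTensor Lam (rT L T x) = rT L' T (f.lTensor Lam x) := by
  induction x using TensorProduct.induction_on with
  | zero => simp
  | tmul a l => simp
  | add x y hx hy => simp [hx, hy]

theorem GL2Rel.map {B C : Type} [Ring B] [Ring C] (φ : B →+* C) {E : Fin 2 → Fin 2 → B}
    (h : GL2Rel E) : GL2Rel (fun i j => φ (E i j)) := by
  intro i j k l
  have := congrArg φ (h i j k l)
  split_ifs at this ⊢ <;> simpa using this

/-- the representation attached to a `gl₂`-module -/
def X (E : Fin 2 → Fin 2 → Module.End ℂ L) (gl : GL2Rel E) : RRep (Lam ⊗[ℂ] L) where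
  e i := rT L (lam.e i)
  ε i j := rT L (lam.ε i j)
  d := rT L lam.d + ∑ k, ∑ l, rT L (lam.ε k l) * (E k l).lTensor Lam
  rel := RRel.twist (RRel.map (rT L) lam.rel) (fun k l => (E k l).lTensor Lam)
    (fun _ _ _ _ => LinearMap.ext fun x => lTensor_rT _ _ x)
    (fun _ _ => LinearMap.ext fun x => lTensor_rT _ _ x)
    (fun _ _ _ => LinearMap.ext fun x => lTensor_rT _ _ x)
    (GL2Rel.map (C := Module.End ℂ (Lam ⊗[ℂ] L))
      (Module.End.lTensorAlgHom ℂ L Lam).toRingHom gl)

variable (E : Fin 2 → Fin 2 → Module.End ℂ L) (gl : GL2Rel E)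

theorem X_e (i : ℕ) : (X E gl).e i = rT L (lam.e i) := rfl
theorem X_ε (i j : Fin 2) : (X E gl).ε i j = rT L (lam.ε i j) := rfl
theorem X_d (x : Lam ⊗[ℂ] L) : (X E gl).d x = rT L lam.d x +
    ((rT L (lam.ε 0 0) ((E 0 0).lTensor Lam x) + rT L (lam.ε 0 1) ((E 0 1).lTensor Lam x)) +
    (rT L (lam.ε 1 0) ((E 1 0).lTensor Lam x) + rT L (lam.ε 1 1) ((E 1 1).lTensor Lam x))) := by
  simp [X, Fin.sum_univ_two]

theorem X_top : (X E gl).e 5 = 0 := by
  rw [X_e, show lam.e 5 = 0 from lamE_big le_rfl, map_zero]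

theorem rT_d_gen (l : L) : rT L lam.d (1 ⊗ₜ l) = 0 := by
  rw [rT_tmul, show lam.d 1 = 0 from lamD_one, zero_tmul]

theorem free0_X : Free0 (X E gl) (TensorProduct.mk ℂ Lam L 1) where
  e0 w := by
    rw [X_e, mk_apply, rT_tmul, show lam.e 0 1 = 1 from lamE_one 0]
  ind p h0 hadd hsmul hgen hε x := by
    induction x using TensorProduct.induction_on with
    | zero => exact h0
    | add x y hx hy => exact hadd _ _ hx hy
    | tmul a l =>
      induction a using lam_ind with
      | zero => rwa [zero_tmul]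
      | add x y hx hy => rw [add_tmul]; exact hadd _ _ hx hy
      | smul c x hx => rw [← smul_tmul']; exact hsmul _ _ hx
      | one => exact hgen l
      | step i j x hx => exact hε i j _ hx
  univ Y _ _ η hη f := by
    let g : VI →ₗ[ℂ] Module.End ℂ Y :=
      ∑ p : Fin 2 × Fin 2, (LinearMap.proj p : VI →ₗ[ℂ] ℂ).smulRight (η p.1 p.2)
    have hg : ∀ m, g m = ∑ p : Fin 2 × Fin 2, m p • η p.1 p.2 := fun m => by simp [g]
    have hg2 : ∀ m, g m * g m = 0 := by
      intro m
      have h1 : g m * g m = ∑ p : Fin 2 × Fin 2, ∑ q : Fin 2 × Fin 2,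
          (m p * m q) • (η p.1 p.2 * η q.1 q.2) := by
        rw [hg, Finset.sum_mul_sum]
        simp only [smul_mul_smul_comm]
      have h2 : g m * g m = ∑ p : Fin 2 × Fin 2, ∑ q : Fin 2 × Fin 2,
          (m p * m q) • (η q.1 q.2 * η p.1 p.2) := by
        rw [h1, Finset.sum_comm]
        simp only [mul_comm]
      have h3 : (2 : ℂ) • (g m * g m) = 0 := by
        rw [two_smul]
        nth_rewrite 1 [h1]
        rw [h2, ← Finset.sum_add_distrib]
        refine Finset.sum_eq_zero fun p _ => ?_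
        rw [← Finset.sum_add_distrib]
        refine Finset.sum_eq_zero fun q _ => ?_
        rw [← smul_add, hη, smul_zero]
      simpa using h3
    let φ : Lam →ₐ[ℂ] Module.End ℂ Y := ExteriorAlgebra.lift ℂ ⟨g, hg2⟩
    have hφ : ∀ i j, φ (eps i j) = η i j := by
      intro i j
      rw [eps, ExteriorAlgebra.lift_ι_apply, hg]
      simp [Pi.single_apply]
    refine ⟨TensorProduct.lift ((LinearMap.lcomp ℂ Y f) ∘ₗ φ.toLinearMap), fun w => by simp,
      fun i j x => ?_⟩
    induction x using TensorProduct.induction_on with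
    | zero => simp
    | add x y hx hy => simp only [map_add, hx, hy]
    | tmul a l => simp [X_ε, lam, hφ]

end Crest.Agent.R178
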