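import Crest.Agent.R178.Split
import Crest.Agent.R178.Lambda
import Crest.Agent.R178.Cover

/-!
The symmetric powers of the standard representation and the unbounded projective dimensions.
-/

set_option autoImplicit false

noncomputable section

namespace Crest.Agent.R178

open Finset TensorProduct

/-- the data relating two `gl₂`-modules -/
structure Step {L L' : Type} [AddCommGroup L] [Module ℂ L] [AddCommGroup L'] [Module ℂ L']
    (E : Fin 2 → Fin 2 → Module.End ℂ L) (E' : Fin 2 → Fin 2 → Module.End ℂ L')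
    (x : Fin 2 → L' →ₗ[ℂ] L) (D : Fin 2 → L →ₗ[ℂ] L') (c : ℂ) : Prop where
  hc : c ≠ 0
  H1 : ∀ k l v, E k l ∘ₗ x v = x v ∘ₗ E' k l + if l = v then x k else 0
  H2 : ∀ k l v, D v ∘ₗ E k l = E' k l ∘ₗ D v + if v = k then D l else 0
  H3 : D 0 ∘ₗ x 0 + D 1 ∘ₗ x 1 = c • LinearMap.id
  H4 : ∀ k l g, E k l g = x k (D l g)
  H5 : ∀ g, E 0 0 g + E 1 1 g = c • g - g

section

variable {L L' : Type} [AddCommGroup L] [Module ℂ L] [AddCommGroup L'] [Module ℂ L']

/-- the inclusion -/
def iMap (x : Fin 2 → L' →ₗ[ℂ] L) : Lam ⊗[ℂ] L' →ₗ[ℂ] (Fin 2 → Lam ⊗[ℂ] L) :=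
  LinearMap.pi fun v => (x v).lTensor Lam

/-- the projection -/
def pMap (D : Fin 2 → L →ₗ[ℂ] L') : (Fin 2 → Lam ⊗[ℂ] L) →ₗ[ℂ] Lam ⊗[ℂ] L' :=
  (D 0).lTensor Lam ∘ₗ LinearMap.proj (0 : Fin 2) + (D 1).lTensor Lam ∘ₗ LinearMap.proj (1 : Fin 2)

theorem iMap_apply (x : Fin 2 → L' →ₗ[ℂ] L) (y : Lam ⊗[ℂ] L') (v : Fin 2) :
    iMap x y v = (x v).lTensor Lam y := rfl

theorem pMap_apply (D : Fin 2 → L →ₗ[ℂ] L') (y : Fin 2 → Lam ⊗[ℂ] L) :
    pMap D y = (D 0).lTensor Lam (y 0) + (D 1).lTensor Lam (y 1) := rfl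

variable {E : Fin 2 → Fin 2 → Module.End ℂ L} {E' : Fin 2 → Fin 2 → Module.End ℂ L'}
  {x : Fin 2 → L' →ₗ[ℂ] L} {D : Fin 2 → L →ₗ[ℂ] L'} {c : ℂ}

theorem shift_tw_e' {V : Type} [AddCommGroup V] [Module ℂ V] (Z : RRep V) (top : Z.e 5 = 0)
    (k : ℕ) (y : Fin 2 → V) : (Z.shift top).tw.e k y = Z.tw.e' k y := by
  cases k <;> rfl

theorem shift_tw_d {V : Type} [AddCommGroup V] [Module ℂ V] (Z : RRep V) (top : Z.e 5 = 0)
    (y : Fin 2 → V) : (Z.shift top).tw.d y = -Z.tw.d y := by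
  funext v
  simp only [RRep.tw_d, RRep.shift_d, RRep.shift_ε, Pi.neg_apply]
  abel

theorem Step.split (h : Step E E' x D c) (gl : GL2Rel E) (gl' : GL2Rel E') :
    Split (X E gl).tw ((TensorProduct.mk ℂ Lam L 1).compLeft (Fin 2))
      (((X E gl).shift (X_top E gl)).E rfl) aOp (X E' gl') (iMap x) (pMap D) c where
  free := (free0_X E gl).tw
  top := RRep.tw_top _ (X_top E gl)
  Ne k y := by rw [RRep.E_e, shift_tw_e', shift_tw_e']; rfl
  Nε k l y := by
    rw [RRep.E_ε]
    refine Prod.ext (funext fun v => ?_) (funext fun v => ?_) <;> simp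
  Nd y := by rw [RRep.E_d, shift_tw_d, shift_tw_d, neg_neg]
  hi :=
    { he := fun k y => funext fun v => lTensor_rT _ _ _
      hε := fun k l y => funext fun v => lTensor_rT _ _ _
      hd := fun y => funext fun v => by
        have H : ∀ k l v, (E k l).lTensor Lam ((x v).lTensor Lam y) =
            (x v).lTensor Lam ((E' k l).lTensor Lam y) +
              if l = v then (x k).lTensor Lam y else 0 := by
          intro k l v
          rw [← LinearMap.lTensor_comp_apply, h.H1, ← LinearMap.lTensor_comp_apply]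
          split_ifs <;> simp
        simp only [RRep.tw_d, iMap_apply, X_d, X_ε, map_add, lTensor_rT, H]
        fin_cases v <;> simp <;> abel }
  hp :=
    { he := fun k y => by simp [pMap_apply, X_e, lTensor_rT]
      hε := fun k l y => by simp [pMap_apply, X_ε, lTensor_rT]
      hd := fun y => by
        have H : ∀ k l v z, (D v).lTensor Lam ((E k l).lTensor Lam z) =
            (E' k l).lTensor Lam ((D v).lTensor Lam z) +
              if v = k then (D l).lTensor Lam z else 0 := by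
          intro k l v z
          rw [← LinearMap.lTensor_comp_apply, h.H2, ← LinearMap.lTensor_comp_apply]
          split_ifs <;> simp
        simp only [RRep.tw_d, pMap_apply, X_d, X_ε, map_add, map_sub, lTensor_rT, H]
        simp
        abel }
  hc := h.hc
  pi y := by
    rw [pMap_apply, iMap_apply, iMap_apply, ← LinearMap.lTensor_comp_apply,
      ← LinearMap.lTensor_comp_apply, ← LinearMap.add_apply, ← LinearMap.lTensor_add, h.H3]
    simp
  base w := by
    refine ⟨fun k l v => E k l (w v) - if v = l then w k else 0, funext fun v => ?_,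
      funext fun v => ?_⟩
    · fin_cases v <;> simp [RRep.tw_d, X_d, X_ε, rT_d_gen, tmul_sub, -rT_tmul] <;> abel
    · have e0 : ∀ g, c • (1 : Lam) ⊗ₜ[ℂ] g =
          (1 : Lam) ⊗ₜ[ℂ] E 0 0 g + (1 : Lam) ⊗ₜ[ℂ] E 1 1 g + (1 : Lam) ⊗ₜ[ℂ] g := by
        intro g
        rw [← tmul_add, h.H5, ← tmul_add, sub_add_cancel, tmul_smul]
      simp only [aOp_apply, Pi.add_apply, Pi.sub_apply, Pi.smul_apply, iMap_apply, pMap_apply,
        LinearMap.compLeft_apply, Function.comp_apply, mk_apply, LinearMap.lTensor_tmul,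
        map_add, ← h.H4, e0]
      fin_cases v <;> simp [tmul_sub] <;> abel

end

open MvPolynomial

/-- homogeneous polynomials of degree `n` in two variables -/
abbrev Hn (n : ℕ) : Type := homogeneousSubmodule (Fin 2) ℂ n

instance (n : ℕ) : Module.Finite ℂ (Hn n) :=
  Module.Finite.iff_fg.2 (homogeneousSubmodule_fg (Fin 2) ℂ n)

theorem isHom_X_mul_pderiv {n : ℕ} {φ : MvPolynomial (Fin 2) ℂ} (h : φ.IsHomogeneous n)
    (i j : Fin 2) : (MvPolynomial.X i * pderiv j φ).IsHomogeneous n := by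
  cases n with
  | zero =>
    rw [← totalDegree_zero_iff_isHomogeneous, totalDegree_eq_zero_iff_eq_C] at h
    rw [h, pderiv_C, mul_zero]
    exact isHomogeneous_zero _ _ _
  | succ n =>
    have := (isHomogeneous_X ℂ i).mul (h.pderiv (i := j))
    rwa [Nat.add_sub_cancel, add_comm] at this

/-- the operators `xᵢ ∂ⱼ` -/
def En (n : ℕ) (i j : Fin 2) : Module.End ℂ (Hn n) :=
  (LinearMap.mulLeft ℂ (MvPolynomial.X i) ∘ₗ (pderiv j).toLinearMap).restrict
    fun _ h => isHom_X_mul_pderiv h i j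

@[simp] theorem En_val (n : ℕ) (i j : Fin 2) (φ : Hn n) :
    (En n i j φ : MvPolynomial (Fin 2) ℂ) = MvPolynomial.X i * pderiv j φ.1 := rfl

/-- multiplication by a variable -/
def xn (n : ℕ) (v : Fin 2) : Hn n →ₗ[ℂ] Hn (n + 1) :=
  (LinearMap.mulLeft ℂ (MvPolynomial.X v)).restrict fun _ h => by
    have := (isHomogeneous_X ℂ v).mul h
    rwa [add_comm] at this

@[simp] theorem xn_val (n : ℕ) (v : Fin 2) (φ : Hn n) :
    (xn n v φ : MvPolynomial (Fin 2) ℂ) = MvPolynomial.X v * φ.1 := rfl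

/-- partial derivatives -/
def Dn (n : ℕ) (v : Fin 2) : Hn (n + 1) →ₗ[ℂ] Hn n :=
  (pderiv v).toLinearMap.restrict fun _ h => IsHomogeneous.pderiv h

@[simp] theorem Dn_val (n : ℕ) (v : Fin 2) (φ : Hn (n + 1)) :
    (Dn n v φ : MvPolynomial (Fin 2) ℂ) = pderiv v φ.1 := rfl

theorem pderiv_comm' (i j : Fin 2) (φ : MvPolynomial (Fin 2) ℂ) :
    pderiv i (pderiv j φ) = pderiv j (pderiv i φ) := by
  induction φ using MvPolynomial.induction_on with
  | C a => simp
  | add p q hp hq => simp [hp, hq]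
  | mul_X p k hp =>
    simp only [Derivation.leibniz, smul_eq_mul, map_add, pderiv_X, hp, Pi.single_apply]
    split_ifs <;> simp <;> ring

theorem gl_En (n : ℕ) : GL2Rel (En n) := by
  intro i j k l
  refine LinearMap.ext fun φ => Subtype.ext ?_
  fin_cases i <;> fin_cases j <;> fin_cases k <;> fin_cases l <;>
    simp [pderiv_comm' 1 0] <;> ring

theorem euler {n : ℕ} (φ : Hn n) : MvPolynomial.X 0 * pderiv 0 φ.1 +
    MvPolynomial.X 1 * pderiv 1 φ.1 = (n : MvPolynomial (Fin 2) ℂ) * φ.1 := by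
  have := IsHomogeneous.sum_X_mul_pderiv φ.2
  rwa [Fin.sum_univ_two, nsmul_eq_mul] at this

theorem step_succ (n : ℕ) : Step (En (n + 1)) (En n) (xn n) (Dn n) ((n : ℂ) + 2) where
  hc := by exact_mod_cast (by omega : n + 2 ≠ 0)
  H1 k l v := by
    refine LinearMap.ext fun φ => Subtype.ext ?_
    fin_cases l <;> fin_cases v <;> simp <;> ring
  H2 k l v := by
    refine LinearMap.ext fun φ => Subtype.ext ?_
    fin_cases k <;> fin_cases l <;> fin_cases v <;> simp [pderiv_comm' 1 0] <;> ring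
  H3 := by
    refine LinearMap.ext fun φ => Subtype.ext ?_
    have := euler φ
    simp [Algebra.smul_def, map_ofNat]
    linear_combination this
  H4 k l g := rfl
  H5 g := by
    refine Subtype.ext ?_
    have := euler g
    simp [Algebra.smul_def, map_ofNat] at this ⊢
    linear_combination this

theorem En_zero (k l : Fin 2) : En 0 k l = 0 := by
  refine LinearMap.ext fun φ => Subtype.ext ?_
  have h : φ.1.IsHomogeneous 0 := φ.2
  rw [← totalDegree_zero_iff_isHomogeneous, totalDegree_eq_zero_iff_eq_C] at h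
  rw [En_val, h, pderiv_C, mul_zero]
  rfl

theorem step_zero : Step (En 0) (fun _ _ => (0 : Module.End ℂ PUnit)) (fun _ => 0) (fun _ => 0) 1 where
  hc := one_ne_zero
  H1 k l v := by simp
  H2 k l v := by simp
  H3 := Subsingleton.elim _ _
  H4 k l g := by simp [En_zero]
  H5 g := by simp [En_zero]

/-- the modules of the construction -/
def Xn (n : ℕ) : RRep (Lam ⊗[ℂ] Hn n) := (X (En n) (gl_En n)).shift (X_top _ _)

theorem pd_E_zero : ((Xn 0).E rfl).toA.pd 1 := by
  have gl' : GL2Rel (fun _ _ : Fin 2 => (0 : Module.End ℂ PUnit)) := by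
    intro i j k l
    exact Subsingleton.elim _ _
  exact (step_zero.split (gl_En 0) gl').pd_succ (X_top _ _) (pd_zero _)

theorem pd_Xn (n : ℕ) : ∃ m, (Xn n).toA.pd m := by
  induction n with
  | zero => exact ⟨5, (ses_Ind (Xn 0) rfl).pd₃ (pd_E_zero.mono (by omega)) (pd_ind _ _)⟩
  | succ n ih =>
    obtain ⟨m, hm⟩ := ih
    have h1 := ((step_succ n).split (gl_En _) (gl_En _)).pd_succ (X_top _ _)
      (hm.mono (m := m + 3) (by omega))
    exact ⟨_, (ses_Ind (Xn (n + 1)) rfl).pd₃ h1 ((pd_ind _ _).mono (by omega))⟩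

theorem not_pd_Xn (n : ℕ) : ¬ (Xn n).toA.pd (4 + 2 * n) := by
  induction n with
  | zero =>
    intro h
    have h1 := (ses_Ind (Xn 0) rfl).pd₂ (pd_E_zero.mono (by omega)) h
    let l : Hn 0 := ⟨1, isHomogeneous_one _ _⟩
    refine not_pd_ind_of_supp 3 1 rfl le_rfl _ (Xn 0) rfl (fun i hi => ?_) ((1 : Lam) ⊗ₜ[ℂ] l)
      ((free0_X (En 0) (gl_En 0)).e0 l) (fun h2 => ?_) ?_ h1
    · obtain rfl : i = 0 := by omega
      rfl
    · have h3 : l = 0 := (free0_X (En 0) (gl_En 0)).gen_injective (by simpa using h2)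
      simpa [l] using congrArg Subtype.val h3
    · simp [Xn, X_d, En_zero, rT_d_gen, -rT_tmul]
  | succ n ih =>
    intro h
    have h1 := (ses_Ind (Xn (n + 1)) rfl).pd₁ (n := 4 + 2 * n + 1)
      ((pd_ind _ _).mono (by omega)) h
    have h2 := ((step_succ n).split (gl_En _) (gl_En _)).pd_of_pd h1
    exact ih ((ses_cone _ (X_top _ _)).pd₁
      (((free0_X (En n) (gl_En n)).pd_cone (X_top _ _)).mono (by omega)) h2)

theorem main : ∃ (A : Type) (_ : Ring A) (_ : Algebra ℂ A), FiniteDimensional ℂ A ∧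
    ∀ k : ℕ, ∃ N : ModuleCat.{0} A, Module.Finite A N ∧
      ¬ CategoryTheory.HasProjectiveDimensionLT N k ∧
      ∃ n : ℕ, CategoryTheory.HasProjectiveDimensionLT N n :=
  ⟨A, inferInstance, inferInstance, finite_A, fun k =>
    ⟨ModuleCat.of A (Xn k).toA.Mod, (Xn k).toA.finite,
      fun h => not_pd_Xn k (ARep.pd.mono (M := (Xn k).toA) h (by omega)), pd_Xn k⟩⟩

end Crest.Agent.R178
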