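import Mathlib

/-!
Algebras given by generators and relations, the two algebras `R` and `A` of the construction,
and their representations as operator tuples.
-/

set_option autoImplicit false

noncomputable section

namespace Crest.Agent.R178

open Finset

section Pres

variable (G : Type) (P : ∀ (B : Type) [Ring B], (G → B) → Prop)

/-- two elements of the free algebra agree under every admissible evaluation -/
def PresRel (x y : FreeAlgebra ℂ G) : Prop :=
  ∀ (B : Type) [Ring B] [Algebra ℂ B] (op : G → B), P B op →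
    FreeAlgebra.lift ℂ op x = FreeAlgebra.lift ℂ op y

/-- the algebra presented by generators `G` and relations `P` -/
def Pres : Type := RingQuot (PresRel G P)

instance : Ring (Pres G P) := inferInstanceAs (Ring (RingQuot (PresRel G P)))
instance : Algebra ℂ (Pres G P) := inferInstanceAs (Algebra ℂ (RingQuot (PresRel G P)))

variable {G}

/-- the quotient map -/
def Pres.mk : FreeAlgebra ℂ G →ₐ[ℂ] Pres G P := RingQuot.mkAlgHom ℂ (PresRel G P)

/-- the generators -/
def Pres.gen (g : G) : Pres G P := Pres.mk P (FreeAlgebra.ι ℂ g)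

variable {P}

/-- the universal property -/
def Pres.lift {B : Type} [Ring B] [Algebra ℂ B] (op : G → B) (h : P B op) : Pres G P →ₐ[ℂ] B :=
  RingQuot.liftAlgHom ℂ ⟨FreeAlgebra.lift ℂ op, fun _ _ hxy => hxy B op h⟩

theorem Pres.lift_mk {B : Type} [Ring B] [Algebra ℂ B] (op : G → B) (h : P B op)
    (x : FreeAlgebra ℂ G) : Pres.lift op h (Pres.mk P x) = FreeAlgebra.lift ℂ op x :=
  RingQuot.liftAlgHom_mkAlgHom_apply ℂ _ _ x

@[simp] theorem Pres.lift_gen {B : Type} [Ring B] [Algebra ℂ B] (op : G → B) (h : P B op)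
    (g : G) : Pres.lift op h (Pres.gen P g) = op g := by
  rw [Pres.gen, Pres.lift_mk, FreeAlgebra.lift_ι_apply]

theorem Pres.mk_surjective : Function.Surjective (Pres.mk P) :=
  RingQuot.mkAlgHom_surjective ℂ _

theorem Pres.sep {x y : Pres G P} (h : ∀ (B : Type) [Ring B] [Algebra ℂ B] (op : G → B)
    (hop : P B op), Pres.lift op hop x = Pres.lift op hop y) : x = y := by
  obtain ⟨x, rfl⟩ := Pres.mk_surjective x
  obtain ⟨y, rfl⟩ := Pres.mk_surjective y
  refine RingQuot.mkAlgHom_rel ℂ fun B _ _ op hop => ?_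
  have := h B op hop
  rwa [Pres.lift_mk, Pres.lift_mk] at this

theorem Pres.induction {p : Pres G P → Prop} (hc : ∀ c : ℂ, p (algebraMap ℂ _ c))
    (hg : ∀ g, p (Pres.gen P g)) (hmul : ∀ x y, p x → p y → p (x * y))
    (hadd : ∀ x y, p x → p y → p (x + y)) (x : Pres G P) : p x := by
  obtain ⟨x, rfl⟩ := Pres.mk_surjective x
  induction x using FreeAlgebra.induction with
  | grade0 c => rw [AlgHom.commutes]; exact hc c
  | grade1 g => exact hg g
  | mul x y hx hy => rw [map_mul]; exact hmul _ _ hx hy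
  | add x y hx hy => rw [map_add]; exact hadd _ _ hx hy

end Pres

/-- the relations among the odd generators -/
structure GRel {B : Type} [Ring B] (ε : Fin 2 → Fin 2 → B) (d : B) : Prop where
  εε : ∀ i j k l, ε i j * ε k l + ε k l * ε i j = 0
  dd : d * d = 0
  dε : ∀ i j, d * ε i j + ε i j * d = -∑ m, ε i m * ε m j

/-- the relations of `R` -/
structure RRel {B : Type} [Ring B] (e : ℕ → B) (ε : Fin 2 → Fin 2 → B) (d : B) : Prop
    extends GRel ε d where
  ee : ∀ i j, e i * e j = if i = j then e i else 0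
  sum_e : ∑ i ∈ range 6, e i = 1
  εe : ∀ a b i, ε a b * e i = e (i + 1) * ε a b
  de : ∀ i, d * e i = e (i + 1) * d

/-- the relations of `A` -/
structure ARel {B : Type} [Ring B] (e : ℕ → B) (ε : Fin 2 → Fin 2 → B) (d : B)
    (n0 n1 : Fin 2 → B) : Prop extends RRel e ε d where
  n00 : ∀ v w, n0 v * n0 w = 0
  n01 : ∀ v w, n0 v * n1 w = 0
  n10 : ∀ v w, n1 v * n0 w = 0
  n11 : ∀ v w, n1 v * n1 w = 0
  n0e : ∀ v, n0 v * e 0 = 0
  n1e : ∀ v, n1 v * e 0 = 0
  en0 : ∀ i v, e i * n0 v = n0 v * e (i + 1)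
  en1 : ∀ i v, e i * n1 v = n1 v * e i
  εn0 : ∀ i j v, ε i j * n0 v =
    -(n0 v * ε i j) + ((if j = v then n1 i else 0) - (if i = j then n1 v else 0))
  εn1 : ∀ i j v, ε i j * n1 v = n1 v * ε i j
  dn0 : ∀ v, d * n0 v = -(n0 v * d - ∑ l, n0 l * ε v l)
  dn1 : ∀ v, d * n1 v = n1 v * d - ∑ l, n1 l * ε v l

namespace RRel

variable {B : Type} [Ring B] {e : ℕ → B} {ε : Fin 2 → Fin 2 → B} {d : B} (h : RRel e ε d)
include h

theorem e_self (i : ℕ) : e i * e i = e i := by rw [h.ee, if_pos rfl]

theorem e_ne {i j : ℕ} (hij : i ≠ j) : e i * e j = 0 := by rw [h.ee, if_neg hij]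

theorem e_big {i : ℕ} (hi : 6 ≤ i) : e i = 0 := by
  rw [← mul_one (e i), ← h.sum_e, Finset.mul_sum]
  refine Finset.sum_eq_zero fun j hj => h.e_ne ?_
  rw [Finset.mem_range] at hj
  omega

theorem e0ε (a b : Fin 2) : e 0 * ε a b = 0 := by
  rw [← mul_one (ε a b), ← h.sum_e, Finset.mul_sum, Finset.mul_sum]
  refine Finset.sum_eq_zero fun j _ => ?_
  rw [h.εe, ← mul_assoc, h.e_ne (by omega), zero_mul]

theorem e0d : e 0 * d = 0 := by
  rw [← mul_one d, ← h.sum_e, Finset.mul_sum, Finset.mul_sum]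
  refine Finset.sum_eq_zero fun j _ => ?_
  rw [h.de, ← mul_assoc, h.e_ne (by omega), zero_mul]

end RRel

/-- generators of `R` -/
inductive GR : Type
  | e (i : ℕ)
  | ε (i j : Fin 2)
  | d

/-- generators of `A` -/
inductive GA : Type
  | e (i : ℕ)
  | ε (i j : Fin 2)
  | d
  | n0 (v : Fin 2)
  | n1 (v : Fin 2)

/-- relations of `R` on an assignment of the generators -/
def PR (B : Type) [Ring B] (op : GR → B) : Prop :=
  RRel (fun i => op (.e i)) (fun i j => op (.ε i j)) (op .d)

/-- relations of `A` on an assignment of the generators -/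
def PA (B : Type) [Ring B] (op : GA → B) : Prop :=
  ARel (fun i => op (.e i)) (fun i j => op (.ε i j)) (op .d) (fun v => op (.n0 v))
    (fun v => op (.n1 v))

/-- the directed algebra -/
abbrev R : Type := Pres GR PR
/-- the extension of `R` by a square-zero bimodule -/
abbrev A : Type := Pres GA PA

/-- idempotents of `R` -/
def Re (i : ℕ) : R := Pres.gen PR (.e i)
/-- odd generators of `R` -/
def Rε (i j : Fin 2) : R := Pres.gen PR (.ε i j)
/-- differential of `R` -/
def Rd : R := Pres.gen PR .d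

/-- idempotents of `A` -/
def Ae (i : ℕ) : A := Pres.gen PA (.e i)
/-- odd generators of `A` -/
def Aε (i j : Fin 2) : A := Pres.gen PA (.ε i j)
/-- differential of `A` -/
def Ad : A := Pres.gen PA .d
/-- bimodule generators of `A` -/
def An0 (v : Fin 2) : A := Pres.gen PA (.n0 v)
/-- bimodule generators of `A` -/
def An1 (v : Fin 2) : A := Pres.gen PA (.n1 v)

theorem relR : RRel Re Rε Rd where
  εε i j k l := Pres.sep fun B _ _ op h => by simpa [Rε] using h.εε i j k l
  dd := Pres.sep fun B _ _ op h => by simpa [Rd] using h.dd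
  dε i j := Pres.sep fun B _ _ op h => by simpa [Rd, Rε] using h.dε i j
  ee i j := Pres.sep fun B _ _ op h => by simpa [Re, apply_ite] using h.ee i j
  sum_e := Pres.sep fun B _ _ op h => by simpa [Re] using h.sum_e
  εe a b i := Pres.sep fun B _ _ op h => by simpa [Re, Rε] using h.εe a b i
  de i := Pres.sep fun B _ _ op h => by simpa [Re, Rd] using h.de i

theorem relA : ARel Ae Aε Ad An0 An1 where
  εε i j k l := Pres.sep fun B _ _ op h => by simpa [Aε] using h.εε i j k l
  dd := Pres.sep fun B _ _ op h => by simpa [Ad] using h.dd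
  dε i j := Pres.sep fun B _ _ op h => by simpa [Ad, Aε] using h.dε i j
  ee i j := Pres.sep fun B _ _ op h => by simpa [Ae, apply_ite] using h.ee i j
  sum_e := Pres.sep fun B _ _ op h => by simpa [Ae] using h.sum_e
  εe a b i := Pres.sep fun B _ _ op h => by simpa [Ae, Aε] using h.εe a b i
  de i := Pres.sep fun B _ _ op h => by simpa [Ae, Ad] using h.de i
  n00 v w := Pres.sep fun B _ _ op h => by simpa [An0] using h.n00 v w
  n01 v w := Pres.sep fun B _ _ op h => by simpa [An0, An1] using h.n01 v w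
  n10 v w := Pres.sep fun B _ _ op h => by simpa [An0, An1] using h.n10 v w
  n11 v w := Pres.sep fun B _ _ op h => by simpa [An1] using h.n11 v w
  n0e v := Pres.sep fun B _ _ op h => by simpa [An0, Ae] using h.n0e v
  n1e v := Pres.sep fun B _ _ op h => by simpa [An1, Ae] using h.n1e v
  en0 i v := Pres.sep fun B _ _ op h => by simpa [An0, Ae] using h.en0 i v
  en1 i v := Pres.sep fun B _ _ op h => by simpa [An1, Ae] using h.en1 i v
  εn0 i j v := Pres.sep fun B _ _ op h => by
    have := h.εn0 i j v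
    split_ifs at this ⊢ <;> simpa [An0, An1, Aε] using this
  εn1 i j v := Pres.sep fun B _ _ op h => by simpa [An1, Aε] using h.εn1 i j v
  dn0 v := Pres.sep fun B _ _ op h => by simpa [An0, Aε, Ad] using h.dn0 v
  dn1 v := Pres.sep fun B _ _ op h => by simpa [An1, Aε, Ad] using h.dn1 v

/-- universal property of `R` -/
def liftR {B : Type} [Ring B] [Algebra ℂ B] {e : ℕ → B} {ε : Fin 2 → Fin 2 → B} {d : B}
    (h : RRel e ε d) : R →ₐ[ℂ] B :=
  Pres.lift (P := PR) (fun g => match g with | .e i => e i | .ε i j => ε i j | .d => d) h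

/-- universal property of `A` -/
def liftA {B : Type} [Ring B] [Algebra ℂ B] {e : ℕ → B} {ε : Fin 2 → Fin 2 → B} {d : B}
    {n0 n1 : Fin 2 → B} (h : ARel e ε d n0 n1) : A →ₐ[ℂ] B :=
  Pres.lift (P := PA) (fun g => match g with
    | .e i => e i | .ε i j => ε i j | .d => d | .n0 v => n0 v | .n1 v => n1 v) h

section
variable {B : Type} [Ring B] [Algebra ℂ B] {e : ℕ → B} {ε : Fin 2 → Fin 2 → B} {d : B}
  {n0 n1 : Fin 2 → B}

@[simp] theorem liftR_e (h : RRel e ε d) (i : ℕ) : liftR h (Re i) = e i := Pres.lift_gen _ _ _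
@[simp] theorem liftR_ε (h : RRel e ε d) (i j : Fin 2) : liftR h (Rε i j) = ε i j :=
  Pres.lift_gen _ _ _
@[simp] theorem liftR_d (h : RRel e ε d) : liftR h Rd = d := Pres.lift_gen _ _ _
@[simp] theorem liftA_e (h : ARel e ε d n0 n1) (i : ℕ) : liftA h (Ae i) = e i :=
  Pres.lift_gen _ _ _
@[simp] theorem liftA_ε (h : ARel e ε d n0 n1) (i j : Fin 2) : liftA h (Aε i j) = ε i j :=
  Pres.lift_gen _ _ _
@[simp] theorem liftA_d (h : ARel e ε d n0 n1) : liftA h Ad = d := Pres.lift_gen _ _ _
@[simp] theorem liftA_n0 (h : ARel e ε d n0 n1) (v : Fin 2) : liftA h (An0 v) = n0 v :=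
  Pres.lift_gen _ _ _
@[simp] theorem liftA_n1 (h : ARel e ε d n0 n1) (v : Fin 2) : liftA h (An1 v) = n1 v :=
  Pres.lift_gen _ _ _

end

theorem R_induction {p : R → Prop} (hc : ∀ c : ℂ, p (algebraMap ℂ _ c)) (he : ∀ i, p (Re i))
    (hε : ∀ i j, p (Rε i j)) (hd : p Rd) (hmul : ∀ x y, p x → p y → p (x * y))
    (hadd : ∀ x y, p x → p y → p (x + y)) (x : R) : p x :=
  Pres.induction hc (fun g => by
    cases g with
    | e i => exact he i
    | ε i j => exact hε i j
    | d => exact hd) hmul hadd x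

theorem A_induction {p : A → Prop} (hc : ∀ c : ℂ, p (algebraMap ℂ _ c)) (he : ∀ i, p (Ae i))
    (hε : ∀ i j, p (Aε i j)) (hd : p Ad) (h0 : ∀ v, p (An0 v)) (h1 : ∀ v, p (An1 v))
    (hmul : ∀ x y, p x → p y → p (x * y))
    (hadd : ∀ x y, p x → p y → p (x + y)) (x : A) : p x :=
  Pres.induction hc (fun g => by
    cases g with
    | e i => exact he i
    | ε i j => exact hε i j
    | d => exact hd
    | n0 v => exact h0 v
    | n1 v => exact h1 v) hmul hadd x

/-- the map `R → A` -/
def incl : R →ₐ[ℂ] A := liftR relA.toRRel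

/-! ### The directed structure of `R` and finite dimension -/

theorem directed (r : R) : (∀ i k, i < k → Re i * r * Re k = 0) ∧
    ∀ j, ∃ c : ℂ, Re j * r * Re j = c • Re j := by
  induction r using R_induction with
  | hc c =>
    refine ⟨fun i k hik => ?_, fun j => ⟨c, ?_⟩⟩
    · rw [← Algebra.commutes, mul_assoc, relR.e_ne hik.ne, mul_zero]
    · rw [← Algebra.commutes, mul_assoc, relR.e_self, Algebra.smul_def]
  | he l =>
    refine ⟨fun i k hik => ?_, fun j => ?_⟩
    · by_cases h : i = l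
      · subst h; rw [relR.e_self, relR.e_ne hik.ne]
      · rw [relR.e_ne h, zero_mul]
    · by_cases h : j = l
      · subst h; exact ⟨1, by rw [relR.e_self, relR.e_self, one_smul]⟩
      · exact ⟨0, by rw [relR.e_ne h, zero_mul, zero_smul]⟩
  | hε a b =>
    refine ⟨fun i k hik => ?_, fun j => ⟨0, ?_⟩⟩
    · rw [mul_assoc, relR.εe, ← mul_assoc, relR.e_ne (by omega), zero_mul]
    · rw [mul_assoc, relR.εe, ← mul_assoc, relR.e_ne (by omega), zero_mul, zero_smul]
  | hd =>
    refine ⟨fun i k hik => ?_, fun j => ⟨0, ?_⟩⟩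
    · rw [mul_assoc, relR.de, ← mul_assoc, relR.e_ne (by omega), zero_mul]
    · rw [mul_assoc, relR.de, ← mul_assoc, relR.e_ne (by omega), zero_mul, zero_smul]
  | hmul x y hx hy =>
    have key : ∀ i k, Re i * (x * y) * Re k =
        ∑ l ∈ range 6, (Re i * x * Re l) * (Re l * y * Re k) := by
      intro i k
      have : Re i * (x * y) * Re k = Re i * x * (∑ l ∈ range 6, Re l) * y * Re k := by
        rw [relR.sum_e]; noncomm_ring
      rw [this, Finset.mul_sum, Finset.sum_mul, Finset.sum_mul]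
      refine Finset.sum_congr rfl fun l _ => ?_
      conv_lhs => rw [← relR.e_self l]
      noncomm_ring
    refine ⟨fun i k hik => ?_, fun j => ?_⟩
    · rw [key]
      refine Finset.sum_eq_zero fun l _ => ?_
      by_cases h : i < l
      · rw [hx.1 i l h, zero_mul]
      · rw [hy.1 l k (by omega), mul_zero]
    · obtain ⟨c, hc⟩ := hx.2 j
      obtain ⟨c', hc'⟩ := hy.2 j
      by_cases hj : j < 6
      · refine ⟨c * c', ?_⟩
        rw [key, Finset.sum_eq_single j]
        · rw [hc, hc', smul_mul_smul_comm, relR.e_self]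
        · intro l _ hl
          by_cases h : j < l
          · rw [hx.1 j l h, zero_mul]
          · rw [hy.1 l j (by omega), mul_zero]
        · intro h; exact absurd (Finset.mem_range.2 hj) h
      · exact ⟨0, by rw [relR.e_big (i := j) (by omega)]; simp⟩
  | hadd x y hx hy =>
    refine ⟨fun i k hik => ?_, fun j => ?_⟩
    · rw [mul_add, add_mul, hx.1 i k hik, hy.1 i k hik, add_zero]
    · obtain ⟨c, hc⟩ := hx.2 j
      obtain ⟨c', hc'⟩ := hy.2 j
      exact ⟨c + c', by rw [mul_add, add_mul, hc, hc', add_smul]⟩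

/-- the left ideal `R e_j` as a complex subspace -/
def Rcol (j : ℕ) : Submodule ℂ R := LinearMap.range (LinearMap.mulRight ℂ (Re j))

theorem Rcol_fg_step (j : ℕ) (h : (Rcol (j + 1)).FG) : (Rcol j).FG := by
  let S : Submodule ℂ R := (Submodule.span ℂ {Re j} ⊔ (Rcol (j + 1)).map (LinearMap.mulRight ℂ Rd)) ⊔
    ⨆ p : Fin 2 × Fin 2, (Rcol (j + 1)).map (LinearMap.mulRight ℂ (Rε p.1 p.2))
  have hS : S.FG := ((Submodule.fg_span_singleton _).sup (h.map _)).sup
    (Submodule.fg_iSup _ fun p => h.map _)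
  have hmul : ∀ (r : R), ∀ x ∈ S, r * x ∈ S := by
    have hcol : ∀ (r g : R), ∀ x ∈ (Rcol (j + 1)).map (LinearMap.mulRight ℂ g),
        r * x ∈ (Rcol (j + 1)).map (LinearMap.mulRight ℂ g) := by
      rintro r g _ ⟨_, ⟨y, rfl⟩, rfl⟩
      exact ⟨_, ⟨r * y, rfl⟩, by simp [mul_assoc]⟩
    have hred : ∀ r : R, r * Re j ∈ S → ∀ x ∈ S, r * x ∈ S := by
      intro r hr x hx
      have : S ≤ S.comap (LinearMap.mulLeft ℂ r) := by
        refine sup_le (sup_le ?_ ?_) (iSup_le fun p => ?_)
        · rw [Submodule.span_singleton_le_iff_mem]; exact hr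
        · intro y hy
          exact Submodule.mem_sup_left (Submodule.mem_sup_right (hcol r _ y hy))
        · intro y hy
          exact Submodule.mem_sup_right (Submodule.mem_iSup_of_mem p (hcol r _ y hy))
      exact this hx
    intro r
    induction r using R_induction with
    | hc c => intro x hx; rw [← Algebra.smul_def]; exact S.smul_mem c hx
    | he i =>
      refine hred _ ?_
      rw [relR.ee]
      split_ifs with h
      · subst h
        exact Submodule.mem_sup_left (Submodule.mem_sup_left (Submodule.mem_span_singleton_self _))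
      · exact S.zero_mem
    | hε a b =>
      refine hred _ (Submodule.mem_sup_right (Submodule.mem_iSup_of_mem (a, b) ?_))
      exact ⟨Re (j + 1), ⟨1, by simp⟩, by simp [relR.εe]⟩
    | hd =>
      refine hred _ (Submodule.mem_sup_left (Submodule.mem_sup_right ?_))
      exact ⟨Re (j + 1), ⟨1, by simp⟩, by simp [relR.de]⟩
    | hmul x y hx hy => intro z hz; rw [mul_assoc]; exact hx _ (hy _ hz)
    | hadd x y hx hy => intro z hz; rw [add_mul]; exact S.add_mem (hx _ hz) (hy _ hz)
  refine Submodule.FG.of_le hS ?_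
  rintro _ ⟨r, rfl⟩
  exact hmul r _
    (Submodule.mem_sup_left (Submodule.mem_sup_left (Submodule.mem_span_singleton_self _)))

theorem Rcol_fg (j : ℕ) : (Rcol j).FG := by
  have h : ∀ k j, 6 ≤ j + k → (Rcol j).FG := by
    intro k
    induction k with
    | zero =>
      intro j hj
      have : Rcol j = ⊥ := by
        rw [Rcol, relR.e_big (i := j) (by omega)]; simp
      rw [this]; exact Submodule.fg_bot
    | succ k ih => intro j hj; exact Rcol_fg_step j (ih (j + 1) (by omega))
  exact h 6 j (by omega)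

instance finite_R : Module.Finite ℂ R := by
  refine ⟨Submodule.FG.of_le (Submodule.fg_iSup (fun j : Fin 6 => Rcol j) fun j => Rcol_fg j) ?_⟩
  intro r _
  rw [← mul_one r, ← relR.sum_e, Finset.mul_sum]
  refine Submodule.sum_mem _ fun j hj => ?_
  exact Submodule.mem_iSup_of_mem ⟨j, Finset.mem_range.1 hj⟩ ⟨r, rfl⟩

@[simp] theorem incl_e (i : ℕ) : incl (Re i) = Ae i := liftR_e _ _
@[simp] theorem incl_ε (i j : Fin 2) : incl (Rε i j) = Aε i j := liftR_ε _ _ _
@[simp] theorem incl_d : incl Rd = Ad := liftR_d _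

instance finite_A : Module.Finite ℂ A := by
  let F : R × (Fin 2 → R) × (Fin 2 → R) →ₗ[ℂ] A :=
    { toFun := fun x => incl x.1 + ∑ v, An0 v * incl (x.2.1 v) + ∑ v, An1 v * incl (x.2.2 v)
      map_add' := fun x y => by
        simp only [Prod.fst_add, Prod.snd_add, Pi.add_apply, map_add, mul_add,
          Finset.sum_add_distrib]
        abel
      map_smul' := fun c x => by
        simp }
  refine Module.Finite.of_surjective F ?_
  let S := LinearMap.range F
  have hR : ∀ r, incl r ∈ S := fun r => ⟨(r, 0, 0), by simp [F]⟩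
  have h0 : ∀ v r, An0 v * incl r ∈ S := fun v r =>
    ⟨(0, Pi.single v r, 0), by fin_cases v <;> simp [F]⟩
  have h1 : ∀ v r, An1 v * incl r ∈ S := fun v r =>
    ⟨(0, 0, Pi.single v r), by fin_cases v <;> simp [F]⟩
  have hred : ∀ a : A, (∀ r, a * incl r ∈ S) → (∀ v r, a * An0 v * incl r ∈ S) →
      (∀ v r, a * An1 v * incl r ∈ S) → ∀ x ∈ S, a * x ∈ S := by
    rintro a k1 k2 k3 _ ⟨x, rfl⟩
    simp only [F, LinearMap.coe_mk, AddHom.coe_mk, mul_add, Finset.mul_sum, ← mul_assoc]
    exact S.add_mem (S.add_mem (k1 _) (S.sum_mem fun v _ => k2 _ _)) (S.sum_mem fun v _ => k3 _ _)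
  have hmul : ∀ a : A, ∀ x ∈ S, a * x ∈ S := by
    intro a
    induction a using A_induction with
    | hc c => intro x hx; rw [← Algebra.smul_def]; exact S.smul_mem c hx
    | he i =>
      refine hred _ (fun r => ?_) (fun v r => ?_) (fun v r => ?_)
      · rw [← incl_e, ← map_mul]; exact hR _
      · rw [relA.en0, ← incl_e, mul_assoc, ← map_mul]; exact h0 _ _
      · rw [relA.en1, ← incl_e, mul_assoc, ← map_mul]; exact h1 _ _
    | hε i j =>
      refine hred _ (fun r => ?_) (fun v r => ?_) (fun v r => ?_)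
      · rw [← incl_ε, ← map_mul]; exact hR _
      · rw [relA.εn0, add_mul, sub_mul, neg_mul, ← incl_ε, mul_assoc, ← map_mul]
        refine S.add_mem (S.neg_mem (h0 _ _)) (S.sub_mem ?_ ?_) <;> split_ifs <;>
          first | exact h1 _ _ | simp
      · rw [relA.εn1, ← incl_ε, mul_assoc, ← map_mul]; exact h1 _ _
    | hd =>
      refine hred _ (fun r => ?_) (fun v r => ?_) (fun v r => ?_)
      · rw [← incl_d, ← map_mul]; exact hR _
      · rw [relA.dn0, neg_mul, sub_mul, Finset.sum_mul]
        refine S.neg_mem (S.sub_mem ?_ (S.sum_mem fun l _ => ?_))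
        · rw [← incl_d, mul_assoc, ← map_mul]; exact h0 _ _
        · rw [← incl_ε, mul_assoc, ← map_mul]; exact h0 _ _
      · rw [relA.dn1, sub_mul, Finset.sum_mul]
        refine S.sub_mem ?_ (S.sum_mem fun l _ => ?_)
        · rw [← incl_d, mul_assoc, ← map_mul]; exact h1 _ _
        · rw [← incl_ε, mul_assoc, ← map_mul]; exact h1 _ _
    | h0 w =>
      refine hred _ (fun r => h0 _ _) (fun v r => ?_) (fun v r => ?_)
      · rw [relA.n00, zero_mul]; exact S.zero_mem
      · rw [relA.n01, zero_mul]; exact S.zero_mem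
    | h1 w =>
      refine hred _ (fun r => h1 _ _) (fun v r => ?_) (fun v r => ?_)
      · rw [relA.n10, zero_mul]; exact S.zero_mem
      · rw [relA.n11, zero_mul]; exact S.zero_mem
    | hmul x y hx hy => intro z hz; rw [mul_assoc]; exact hx _ (hy _ hz)
    | hadd x y hx hy => intro z hz; rw [add_mul]; exact S.add_mem (hx _ hz) (hy _ hz)
  intro a
  have := hmul a 1 (by simpa using hR 1)
  rwa [mul_one] at this

end Crest.Agent.R178
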