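import Crest.Agent.R178.Pres

/-!
Representations of `R` and `A` as operator tuples on a complex vector space, their maps, and
projective dimension.
-/

set_option autoImplicit false

noncomputable section

namespace Crest.Agent.R178

open Finset CategoryTheory

/-- a representation of `R` on `V` -/
structure RRep (V : Type) [AddCommGroup V] [Module ℂ V] where
  e : ℕ → Module.End ℂ V
  ε : Fin 2 → Fin 2 → Module.End ℂ V
  d : Module.End ℂ V
  rel : RRel e ε d

/-- a representation of `A` on `V` -/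
structure ARep (V : Type) [AddCommGroup V] [Module ℂ V] extends RRep V where
  n0 : Fin 2 → Module.End ℂ V
  n1 : Fin 2 → Module.End ℂ V
  arel : ARel e ε d n0 n1

variable {U V W : Type} [AddCommGroup U] [Module ℂ U] [AddCommGroup V] [Module ℂ V]
  [AddCommGroup W] [Module ℂ W]

/-- the action of `R` -/
def RRep.act (M : RRep V) : R →ₐ[ℂ] Module.End ℂ V := liftR M.rel
/-- the action of `A` -/
def ARep.act (M : ARep V) : A →ₐ[ℂ] Module.End ℂ V := liftA M.arel

@[simp] theorem RRep.act_e (M : RRep V) (i : ℕ) : M.act (Re i) = M.e i := liftR_e _ _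
@[simp] theorem RRep.act_ε (M : RRep V) (i j : Fin 2) : M.act (Rε i j) = M.ε i j := liftR_ε _ _ _
@[simp] theorem RRep.act_d (M : RRep V) : M.act Rd = M.d := liftR_d _
@[simp] theorem ARep.act_e (M : ARep V) (i : ℕ) : M.act (Ae i) = M.e i := liftA_e _ _
@[simp] theorem ARep.act_ε (M : ARep V) (i j : Fin 2) : M.act (Aε i j) = M.ε i j := liftA_ε _ _ _
@[simp] theorem ARep.act_d (M : ARep V) : M.act Ad = M.d := liftA_d _
@[simp] theorem ARep.act_n0 (M : ARep V) (v : Fin 2) : M.act (An0 v) = M.n0 v := liftA_n0 _ _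
@[simp] theorem ARep.act_n1 (M : ARep V) (v : Fin 2) : M.act (An1 v) = M.n1 v := liftA_n1 _ _

namespace RRep

variable (M : RRep V)

theorem e_e (i j : ℕ) (x : V) : M.e i (M.e j x) = if i = j then M.e i x else 0 := by
  have := LinearMap.congr_fun (M.rel.ee i j) x
  split_ifs at this ⊢ <;> simpa using this

theorem e_self (i : ℕ) (x : V) : M.e i (M.e i x) = M.e i x := by rw [e_e, if_pos rfl]
theorem e_ne {i j : ℕ} (h : i ≠ j) (x : V) : M.e i (M.e j x) = 0 := by rw [e_e, if_neg h]
theorem sum_e (x : V) : ∑ i ∈ range 6, M.e i x = x := by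
  simpa using LinearMap.congr_fun M.rel.sum_e x
theorem ε_e (a b : Fin 2) (i : ℕ) (x : V) : M.ε a b (M.e i x) = M.e (i + 1) (M.ε a b x) :=
  LinearMap.congr_fun (M.rel.εe a b i) x
theorem d_e (i : ℕ) (x : V) : M.d (M.e i x) = M.e (i + 1) (M.d x) :=
  LinearMap.congr_fun (M.rel.de i) x
theorem e0_ε (a b : Fin 2) (x : V) : M.e 0 (M.ε a b x) = 0 :=
  LinearMap.congr_fun (M.rel.e0ε a b) x
theorem e0_d (x : V) : M.e 0 (M.d x) = 0 := LinearMap.congr_fun M.rel.e0d x
theorem d_d (x : V) : M.d (M.d x) = 0 := LinearMap.congr_fun M.rel.dd x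
theorem ε_ε (i j k l : Fin 2) (x : V) : M.ε i j (M.ε k l x) = -M.ε k l (M.ε i j x) :=
  eq_neg_of_add_eq_zero_left (LinearMap.congr_fun (M.rel.εε i j k l) x)
theorem d_ε (i j : Fin 2) (x : V) :
    M.d (M.ε i j x) = -(M.ε i 0 (M.ε 0 j x) + M.ε i 1 (M.ε 1 j x)) - M.ε i j (M.d x) := by
  have := LinearMap.congr_fun (M.rel.dε i j) x
  rw [eq_sub_iff_add_eq]
  simpa [Fin.sum_univ_two] using this

end RRep

/-- maps of representations of `R` -/
structure IsRHom (M : RRep V) (N : RRep W) (f : V →ₗ[ℂ] W) : Prop where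
  he : ∀ i x, f (M.e i x) = N.e i (f x)
  hε : ∀ i j x, f (M.ε i j x) = N.ε i j (f x)
  hd : ∀ x, f (M.d x) = N.d (f x)

/-- maps of representations of `A` -/
structure IsAHom (M : ARep V) (N : ARep W) (f : V →ₗ[ℂ] W) : Prop
    extends IsRHom M.toRRep N.toRRep f where
  h0 : ∀ v x, f (M.n0 v x) = N.n0 v (f x)
  h1 : ∀ v x, f (M.n1 v x) = N.n1 v (f x)

theorem IsRHom.act {M : RRep V} {N : RRep W} {f : V →ₗ[ℂ] W} (h : IsRHom M N f) (r : R) :
    ∀ x, f (M.act r x) = N.act r (f x) := by
  induction r using R_induction with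
  | hc c => intro x; simp [AlgHom.commutes, Module.algebraMap_end_apply]
  | he i => simpa using h.he i
  | hε i j => simpa using h.hε i j
  | hd => simpa using h.hd
  | hmul a b ha hb => intro x; simp [ha, hb]
  | hadd a b ha hb => intro x; simp [ha, hb]

theorem IsAHom.act {M : ARep V} {N : ARep W} {f : V →ₗ[ℂ] W} (h : IsAHom M N f) (r : A) :
    ∀ x, f (M.act r x) = N.act r (f x) := by
  induction r using A_induction with
  | hc c => intro x; simp [AlgHom.commutes, Module.algebraMap_end_apply]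
  | he i => simpa using h.he i
  | hε i j => simpa using h.hε i j
  | hd => simpa using h.hd
  | h0 v => simpa using h.h0 v
  | h1 v => simpa using h.h1 v
  | hmul a b ha hb => intro x; simp [ha, hb]
  | hadd a b ha hb => intro x; simp [ha, hb]

theorem IsRHom.comp {L : RRep U} {M : RRep V} {N : RRep W} {f : U →ₗ[ℂ] V} {g : V →ₗ[ℂ] W}
    (hg : IsRHom M N g) (hf : IsRHom L M f) : IsRHom L N (g ∘ₗ f) where
  he i x := by simp [hf.he, hg.he]
  hε i j x := by simp [hf.hε, hg.hε]
  hd x := by simp [hf.hd, hg.hd]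

/-- the underlying type of the `A`-module of a representation -/
def ARep.Mod (_M : ARep V) : Type := V

instance (M : ARep V) : AddCommGroup M.Mod := inferInstanceAs (AddCommGroup V)
instance (M : ARep V) : Module ℂ M.Mod := inferInstanceAs (Module ℂ V)
instance (M : ARep V) : Module A M.Mod := Module.compHom V M.act.toRingHom

theorem ARep.smul_def (M : ARep V) (a : A) (x : M.Mod) : a • x = (M.act a (show V from x) : V) := rfl

instance (M : ARep V) : IsScalarTower ℂ A M.Mod where
  smul_assoc c a x := by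
    rw [ARep.smul_def, ARep.smul_def, map_smul]
    rfl

theorem ARep.finite (M : ARep V) [Module.Finite ℂ V] : Module.Finite A M.Mod :=
  haveI : Module.Finite ℂ M.Mod := inferInstanceAs (Module.Finite ℂ V)
  Module.Finite.of_restrictScalars_finite ℂ A M.Mod

/-- the `A`-linear map of a map of representations -/
def IsAHom.toLin {M : ARep V} {N : ARep W} {f : V →ₗ[ℂ] W} (h : IsAHom M N f) :
    M.Mod →ₗ[A] N.Mod where
  toFun := f
  map_add' := f.map_add
  map_smul' a x := h.act a x

/-- projective dimension less than `n` -/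
def ARep.pd (M : ARep V) (n : ℕ) : Prop := HasProjectiveDimensionLT (ModuleCat.of A M.Mod) n

theorem ARep.pd.mono {M : ARep V} {n m : ℕ} (h : M.pd n) (hnm : n ≤ m) : M.pd m :=
  haveI : HasProjectiveDimensionLT (ModuleCat.of A M.Mod) n := h
  hasProjectiveDimensionLT_of_ge _ n m hnm

/-- a short exact sequence of representations -/
structure SES (L : ARep U) (M : ARep V) (N : ARep W) (f : U →ₗ[ℂ] V) (g : V →ₗ[ℂ] W) : Prop where
  hf : IsAHom L M f
  hg : IsAHom M N g
  inj : Function.Injective f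
  exact : Function.Exact f g
  surj : Function.Surjective g

namespace SES

variable {L : ARep U} {M : ARep V} {N : ARep W} {f : U →ₗ[ℂ] V} {g : V →ₗ[ℂ] W}
  (h : SES L M N f g)
include h

/-- the short complex -/
def sc : ShortComplex (ModuleCat.{0} A) :=
  ModuleCat.shortComplexOfCompEqZero h.hf.toLin h.hg.toLin
    (LinearMap.ext fun x => h.exact.apply_apply_eq_zero x)

theorem shortExact : h.sc.ShortExact :=
  ModuleCat.shortComplex_shortExact _ h.exact h.inj h.surj

theorem pd₂ {n : ℕ} (h₁ : L.pd n) (h₃ : N.pd n) : M.pd n :=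
  h.shortExact.hasProjectiveDimensionLT_X₂ n h₁ h₃

theorem pd₃ {n : ℕ} (h₁ : L.pd n) (h₂ : M.pd (n + 1)) : N.pd (n + 1) :=
  h.shortExact.hasProjectiveDimensionLT_X₃ n h₁ h₂

theorem pd₁ {n : ℕ} (h₂ : M.pd n) (h₃ : N.pd (n + 1)) : L.pd n :=
  h.shortExact.hasProjectiveDimensionLT_X₁ n h₂ h₃

end SES

theorem pd_of_retract {M : ARep V} {N : ARep W} {i : V →ₗ[ℂ] W} {r : W →ₗ[ℂ] V}
    (hi : IsAHom M N i) (hr : IsAHom N M r) (h : ∀ x, r (i x) = x) {n : ℕ} (hn : N.pd n) :
    M.pd n :=
  haveI : HasProjectiveDimensionLT (ModuleCat.of A N.Mod) n := hn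
  Retract.hasProjectiveDimensionLT (X := ModuleCat.of A M.Mod) (Y := ModuleCat.of A N.Mod)
    ⟨ModuleCat.ofHom hi.toLin, ModuleCat.ofHom hr.toLin, by
      ext x
      exact h x⟩ n

theorem pd_zero (M : ARep V) [Subsingleton V] : M.pd 0 :=
  haveI : Subsingleton M.Mod := inferInstanceAs (Subsingleton V)
  (ModuleCat.isZero_of_subsingleton (ModuleCat.of A M.Mod)).hasProjectiveDimensionLT_zero

theorem ARel.map {B C : Type} [Ring B] [Ring C] (φ : B →+* C) {e : ℕ → B}
    {ε : Fin 2 → Fin 2 → B} {d : B} {n0 n1 : Fin 2 → B} (h : ARel e ε d n0 n1) :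
    ARel (fun i => φ (e i)) (fun i j => φ (ε i j)) (φ d) (fun v => φ (n0 v))
      (fun v => φ (n1 v)) where
  εε i j k l := by simpa using congrArg φ (h.εε i j k l)
  dd := by simpa using congrArg φ h.dd
  dε i j := by simpa using congrArg φ (h.dε i j)
  ee i j := by
    have := congrArg φ (h.ee i j)
    split_ifs at this ⊢ <;> simpa using this
  sum_e := by simpa using congrArg φ h.sum_e
  εe a b i := by simpa using congrArg φ (h.εe a b i)
  de i := by simpa using congrArg φ (h.de i)
  n00 v w := by simpa using congrArg φ (h.n00 v w)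
  n01 v w := by simpa using congrArg φ (h.n01 v w)
  n10 v w := by simpa using congrArg φ (h.n10 v w)
  n11 v w := by simpa using congrArg φ (h.n11 v w)
  n0e v := by simpa using congrArg φ (h.n0e v)
  n1e v := by simpa using congrArg φ (h.n1e v)
  en0 i v := by simpa using congrArg φ (h.en0 i v)
  en1 i v := by simpa using congrArg φ (h.en1 i v)
  εn0 i j v := by
    have := congrArg φ (h.εn0 i j v)
    split_ifs at this ⊢ <;> simpa using this
  εn1 i j v := by simpa using congrArg φ (h.εn1 i j v)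
  dn0 v := by simpa using congrArg φ (h.dn0 v)
  dn1 v := by simpa using congrArg φ (h.dn1 v)

/-- the representation of an `A`-module -/
def ofModule (Y : Type) [AddCommGroup Y] [Module ℂ Y] [Module A Y] [IsScalarTower ℂ A Y] :
    ARep Y where
  e i := Algebra.lsmul ℂ ℂ Y (Ae i)
  ε i j := Algebra.lsmul ℂ ℂ Y (Aε i j)
  d := Algebra.lsmul ℂ ℂ Y Ad
  n0 v := Algebra.lsmul ℂ ℂ Y (An0 v)
  n1 v := Algebra.lsmul ℂ ℂ Y (An1 v)
  rel := (relA.map (Algebra.lsmul ℂ ℂ Y : A →ₐ[ℂ] Module.End ℂ Y).toRingHom).toRRel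
  arel := relA.map (Algebra.lsmul ℂ ℂ Y : A →ₐ[ℂ] Module.End ℂ Y).toRingHom

theorem ofModule_act (Y : Type) [AddCommGroup Y] [Module ℂ Y] [Module A Y] [IsScalarTower ℂ A Y]
    (a : A) : ∀ y : Y, (ofModule Y).act a y = a • y := by
  induction a using A_induction with
  | hc c => intro x; simp [AlgHom.commutes, Module.algebraMap_end_apply]
  | he i => intro x; rw [ARep.act_e]; rfl
  | hε i j => intro x; rw [ARep.act_ε]; rfl
  | hd => intro x; rw [ARep.act_d]; rfl
  | h0 v => intro x; rw [ARep.act_n0]; rfl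
  | h1 v => intro x; rw [ARep.act_n1]; rfl
  | hmul a b ha hb => intro x; simp [ha, hb, mul_smul]
  | hadd a b ha hb => intro x; simp [ha, hb, add_smul]

/-- projectivity criterion -/
theorem pd_one_of_split (M : ARep V)
    (h : ∀ (Y : Type) [AddCommGroup Y] [Module ℂ Y] (N : ARep Y) (g : Y →ₗ[ℂ] V),
      IsAHom N M g → Function.Surjective g → ∃ s : V →ₗ[ℂ] Y, IsAHom M N s ∧ ∀ x, g (s x) = x) :
    M.pd 1 := by
  have : Module.Projective A M.Mod := by
    refine Module.Projective.of_lifting_property'' fun f hf => ?_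
    let g : (M.Mod →₀ A) →ₗ[ℂ] V := f.restrictScalars ℂ
    have hg : ∀ (a : A) y, g (a • y) = M.act a (g y) := fun a y => f.map_smul a y
    obtain ⟨s, hs, hs'⟩ := h (M.Mod →₀ A) (ofModule _) g
      { he := fun i x => by rw [← M.act_e, ← hg]; rfl
        hε := fun i j x => by rw [← M.act_ε, ← hg]; rfl
        hd := fun x => by rw [← M.act_d, ← hg]; rfl
        h0 := fun v x => by rw [← M.act_n0, ← hg]; rfl
        h1 := fun v x => by rw [← M.act_n1, ← hg]; rfl } hf
    refine ⟨{ toFun := s, map_add' := s.map_add, map_smul' := fun a x => ?_ },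
      LinearMap.ext hs'⟩
    have := hs.act a x
    rw [ofModule_act] at this
    exact this
  exact inferInstanceAs (HasProjectiveDimensionLT (ModuleCat.of A M.Mod) 1)

/-- lifting along a surjection for a projective representation -/
theorem lift_of_pd_one {M : ARep V} (hM : M.pd 1) {T : ARep U} {S : ARep W} {g : U →ₗ[ℂ] W}
    {h : V →ₗ[ℂ] W} (hg : IsAHom T S g) (hh : IsAHom M S h) (hs : Function.Surjective g) :
    ∃ k : V → U, k 0 = 0 ∧ (∀ x, g (k x) = h x) ∧ ∀ x, k (M.d x) = T.d (k x) := by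
  have : HasProjectiveDimensionLT (ModuleCat.of A M.Mod) 1 := hM
  have : Module.Projective A M.Mod := (IsProjective.iff_projective M.Mod).2 inferInstance
  obtain ⟨k, hk⟩ := Module.projective_lifting_property hg.toLin hh.toLin hs
  refine ⟨k, k.map_zero, fun x => LinearMap.congr_fun hk x, fun x => ?_⟩
  have := k.map_smul Ad x
  rwa [ARep.smul_def, ARep.smul_def, ARep.act_d, ARep.act_d] at this

/-- a representation of `R` as one of `A` -/
def RRep.toA (M : RRep V) : ARep V where
  toRRep := M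
  n0 _ := 0
  n1 _ := 0
  arel := { M.rel with
    n00 := by simp, n01 := by simp, n10 := by simp, n11 := by simp, n0e := by simp,
    n1e := by simp, en0 := by simp, en1 := by simp, εn0 := by simp, εn1 := by simp,
    dn0 := by simp, dn1 := by simp }

theorem IsRHom.toA {M : RRep V} {N : RRep W} {f : V →ₗ[ℂ] W} (h : IsRHom M N f) :
    IsAHom M.toA N.toA f :=
  { h with h0 := fun _ _ => f.map_zero, h1 := fun _ _ => f.map_zero }

/-- the product of two representations -/
def RRep.prod (M : RRep V) (N : RRep W) : RRep (V × W) where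
  e i := (M.e i).prodMap (N.e i)
  ε i j := (M.ε i j).prodMap (N.ε i j)
  d := M.d.prodMap N.d
  rel :=
    { εε := fun i j k l => by
        ext x <;> simp [M.ε_ε i j k l, N.ε_ε i j k l]
      dd := by ext x <;> simp [M.d_d, N.d_d]
      dε := fun i j => by
        ext x <;> simp [M.d_ε, N.d_ε, Fin.sum_univ_two]
      ee := fun i j => by
        split_ifs with h <;> ext x <;> simp [M.e_e, N.e_e, h]
      sum_e := by
        ext x <;> simp [Prod.fst_sum, Prod.snd_sum, M.sum_e, N.sum_e]
      εe := fun a b i => by ext x <;> simp [M.ε_e, N.ε_e]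
      de := fun i => by ext x <;> simp [M.d_e, N.d_e] }

@[simp] theorem RRep.prod_e (M : RRep V) (N : RRep W) (i : ℕ) (x : V × W) :
    (M.prod N).e i x = (M.e i x.1, N.e i x.2) := rfl
@[simp] theorem RRep.prod_ε (M : RRep V) (N : RRep W) (i j : Fin 2) (x : V × W) :
    (M.prod N).ε i j x = (M.ε i j x.1, N.ε i j x.2) := rfl
@[simp] theorem RRep.prod_d (M : RRep V) (N : RRep W) (x : V × W) :
    (M.prod N).d x = (M.d x.1, N.d x.2) := rfl

theorem pd_prod {M : RRep V} {N : RRep W} {n : ℕ} (hM : M.toA.pd n) (hN : N.toA.pd n) :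
    (M.prod N).toA.pd n := by
  have : SES M.toA (M.prod N).toA N.toA (LinearMap.inl ℂ V W) (LinearMap.snd ℂ V W) :=
    { hf := IsRHom.toA ⟨by simp, by simp, by simp⟩
      hg := IsRHom.toA ⟨by simp, by simp, by simp⟩
      inj := LinearMap.inl_injective
      exact := Function.Exact.inl_snd
      surj := Prod.snd_surjective }
  exact this.pd₂ hM hN

/-- a subrepresentation -/
def RRep.sub (M : RRep V) (S : Submodule ℂ V) (he : ∀ i, ∀ x ∈ S, M.e i x ∈ S)
    (hε : ∀ i j, ∀ x ∈ S, M.ε i j x ∈ S) (hd : ∀ x ∈ S, M.d x ∈ S) : RRep S where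
  e i := (M.e i).restrict (he i)
  ε i j := (M.ε i j).restrict (hε i j)
  d := M.d.restrict hd
  rel :=
    { εε := fun i j k l => by
        ext x; simp [M.ε_ε i j k l]
      dd := by ext x; simp [M.d_d]
      dε := fun i j => by
        ext x; simp [M.d_ε, Fin.sum_univ_two]
      ee := fun i j => by
        split_ifs with h <;> ext x <;> simp [M.e_e, h]
      sum_e := by
        ext x; simp [M.sum_e]
      εe := fun a b i => by ext x; simp [M.ε_e]
      de := fun i => by ext x; simp [M.d_e] }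

end Crest.Agent.R178
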