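import Crest.Agent.R178.Cone

/-!
The abstract comparison between `E` of a shifted free representation and a direct summand of its
twist.
-/

set_option autoImplicit false

noncomputable section

namespace Crest.Agent.R178

open Finset

variable {U V W : Type} [AddCommGroup U] [Module ℂ U] [AddCommGroup V] [Module ℂ V]
  [AddCommGroup W] [Module ℂ W]

/-- the data of the comparison -/
structure Split (Z : RRep V) (gen : W →ₗ[ℂ] V) (N : RRep (V × V))
    (a : Fin 2 → Fin 2 → Module.End ℂ V) (M : RRep U) (i : U →ₗ[ℂ] V) (p : V →ₗ[ℂ] U)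
    (c : ℂ) : Prop where
  free : Free0 Z gen
  top : Z.e 5 = 0
  Ne : ∀ k y, N.e k y = (Z.e k y.1, Z.e' k y.2)
  Nε : ∀ k l y, N.ε k l y = (Z.ε k l y.1, -Z.ε k l y.2 + a k l y.1)
  Nd : ∀ y, N.d y = (Z.d y.1, -Z.d y.2)
  hi : IsRHom M Z i
  hp : IsRHom Z M p
  hc : c ≠ 0
  pi : ∀ y, p (i y) = c • y
  base : ∀ w, ∃ u : Fin 2 → Fin 2 → W,
    Z.d (gen w) = (Z.ε 0 0 (gen (u 0 0)) + Z.ε 0 1 (gen (u 0 1))) +
      (Z.ε 1 0 (gen (u 1 0)) + Z.ε 1 1 (gen (u 1 1))) ∧
    (a 0 0 (gen (u 0 0)) + a 0 1 (gen (u 0 1))) + (a 1 0 (gen (u 1 0)) + a 1 1 (gen (u 1 1))) =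
      i (p (gen w)) - c • gen w

theorem IsRHom.he' {M : RRep V} {N : RRep W} {f : V →ₗ[ℂ] W} (h : IsRHom M N f) (k : ℕ) (x : V) :
    f (M.e' k x) = N.e' k (f x) := by
  cases k with
  | zero => simp
  | succ k => simpa using h.he k x

namespace Split

variable {Z : RRep V} {gen : W →ₗ[ℂ] V} {N : RRep (V × V)}
  {a : Fin 2 → Fin 2 → Module.End ℂ V} {M : RRep U} {i : U →ₗ[ℂ] V} {p : V →ₗ[ℂ] U} {c : ℂ}
  (h : Split Z gen N a M i p c)
include h

theorem exists_Xi : ∃ F : V × V →ₗ[ℂ] V × V, IsRHom (Z.cone h.top) N F ∧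
    (∀ x, (F x).1 = x.1) ∧ ∀ x, F (0, x) = (0, c • x - i (p x)) := by
  obtain ⟨F, hF, hF'⟩ := h.free.exists_coneHom h.top N (LinearMap.inl ℂ V V ∘ₗ gen)
    (fun w => by simp [h.Ne, h.free.e0])
  have hF'' : ∀ w, F (gen w, 0) = (gen w, 0) := hF'
  refine ⟨F, hF, fun x => ?_, fun x => ?_⟩
  · induction x using h.free.cone_ind h.top with
    | h0 => simp
    | hadd x y hx hy => simp [hx, hy]
    | hsmul c x hx => simp [hx]
    | hgen w => rw [hF'']
    | hε i j x hx => rw [hF.hε, h.Nε, hx]; rfl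
    | hd x hx => rw [hF.hd, h.Nd, hx]; rfl
  · induction x using h.free.ind with
    | _zero => simp [← Prod.zero_eq_mk]
    | _add x y hx hy =>
      rw [show ((0 : V), x + y) = (0, x) + (0, y) by simp, map_add, hx, hy]
      simp
      abel
    | _smul r x hx =>
      rw [show ((0 : V), r • x) = r • (0, x) by simp, map_smul, hx]
      simp [smul_sub, smul_comm r c]
    | _gen w =>
      obtain ⟨u, hu1, hu2⟩ := h.base w
      have e1 : ((0 : V), gen w) = (Z.cone h.top).d (gen w, 0) -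
          (((Z.cone h.top).ε 0 0 (gen (u 0 0), 0) + (Z.cone h.top).ε 0 1 (gen (u 0 1), 0)) +
          ((Z.cone h.top).ε 1 0 (gen (u 1 0), 0) + (Z.cone h.top).ε 1 1 (gen (u 1 1), 0))) := by
        simp [RRep.cone_d, RRep.cone_ε, hu1]
      rw [e1]
      simp only [map_sub, map_add, hF.hd, hF.hε, hF'', h.Nd, h.Nε]
      simp [hu1, hu2]
    | _eps k l x hx =>
      have e1 : ((0 : V), Z.ε k l x) = -(Z.cone h.top).ε k l (0, x) := by
        simp [RRep.cone_ε]
      rw [e1, map_neg, hF.hε, hx, h.Nε]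
      simp [h.hp.hε, h.hi.hε]

theorem pd_of_pd {m : ℕ} (hm : N.toA.pd m) : M.toA.pd m := by
  obtain ⟨F, hF, h1, h2⟩ := h.exists_Xi
  refine pd_of_retract (i := F ∘ₗ LinearMap.inl ℂ V V ∘ₗ i)
    (r := c⁻¹ • (p ∘ₗ LinearMap.fst ℂ V V)) (IsRHom.toA ⟨fun k x => ?_, fun k l x => ?_, fun x => ?_⟩)
    (IsRHom.toA ⟨fun k x => ?_, fun k l x => ?_, fun x => ?_⟩) (fun x => ?_) hm
  · simp [← hF.he, RRep.cone_e, h.hi.he]
  · simp [← hF.hε, RRep.cone_ε, h.hi.hε]
  · have e1 : (Z.cone h.top).d (i x, 0) = (Z.d (i x), 0) + (0, i x) := by simp [RRep.cone_d]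
    simp only [LinearMap.comp_apply, LinearMap.inl_apply, ← hF.hd, e1, map_add, h2, h.pi, h.hi.hd]
    simp [← Prod.zero_eq_mk]
  · simp [h.Ne, h.hp.he]
  · simp [h.Nε, h.hp.hε]
  · simp [h.Nd, h.hp.hd]
  · simp [h1, h.pi, smul_smul, h.hc]

theorem pd_succ (top : M.e 5 = 0) {m : ℕ} (hm : (M.shift top).toA.pd m) : N.toA.pd (m + 1) := by
  obtain ⟨F, hF, h1, h2⟩ := h.exists_Xi
  have hs : SES (M.shift top).toA ((Z.cone h.top).prod (M.shift top)).toA N.toA
      (LinearMap.inl ℂ (V × V) U ∘ₗ LinearMap.inr ℂ V V ∘ₗ i)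
      (F.coprod (LinearMap.inr ℂ V V ∘ₗ i)) :=
    { hf := IsRHom.toA ⟨fun k x => by simp [RRep.cone_e, h.hi.he'],
        fun k l x => by simp [RRep.cone_ε, h.hi.hε], fun x => by simp [RRep.cone_d, h.hi.hd]⟩
      hg := IsRHom.toA ⟨fun k x => by
          simp only [RRep.prod_e, LinearMap.coprod_apply, hF.he, map_add]
          simp [h.Ne, h.hi.he'],
        fun k l x => by
          simp only [RRep.prod_ε, LinearMap.coprod_apply, hF.hε, map_add]
          simp [h.Nε, h.hi.hε],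
        fun x => by
          simp only [RRep.prod_d, LinearMap.coprod_apply, hF.hd, map_add]
          simp [h.Nd, h.hi.hd]⟩
      inj := fun x y hxy => by
        have e1 : i x = i y := congrArg (fun z => z.1.2) hxy
        have e2 := congrArg p e1
        rw [h.pi, h.pi] at e2
        exact smul_right_injective _ h.hc e2
      exact := by
        rintro ⟨⟨x1, x2⟩, y⟩
        constructor
        · intro hx
          have e1 : x1 = 0 := by simpa [h1] using congrArg Prod.fst hx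
          subst e1
          have e2 : c • x2 - i (p x2) + i y = 0 := by simpa [h2] using congrArg Prod.snd hx
          have e3 : y = 0 := by simpa [h.pi, h.hc] using congrArg p e2
          subst e3
          refine ⟨c⁻¹ • p x2, ?_⟩
          have e4 : i (p x2) = c • x2 := by
            rw [map_zero, add_zero, sub_eq_zero] at e2
            exact e2.symm
          simp [e4, smul_smul, h.hc]
        · rintro ⟨z, hz⟩
          rw [← hz]
          simp [h2, h.pi]
      surj := by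
        rintro ⟨y1, y2⟩
        refine ⟨((y1, c⁻¹ • (y2 - (F (y1, 0)).2)), c⁻¹ • p (y2 - (F (y1, 0)).2)), ?_⟩
        have e1 : (y1, c⁻¹ • (y2 - (F (y1, 0)).2)) = (y1, 0) + (0, c⁻¹ • (y2 - (F (y1, 0)).2)) := by
          simp
        rw [LinearMap.coprod_apply, e1, map_add, h2]
        refine Prod.ext (by simp [h1]) ?_
        simp [smul_smul, h.hc]
        abel }
  exact hs.pd₃ hm (pd_prod ((h.free.pd_cone h.top).mono (by omega)) (hm.mono (by omega)))

end Split

end Crest.Agent.R178
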